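import Mathlib
import Vale.Agent.P333.G.Base

set_option linter.all false

/-!
# P333, ratio 2, block (d2): splicing closed walks

`spliceAll ws` merges closed walks (nonempty lists of strings, closed cyclically) at common strings
until they are pairwise disjoint.
-/

namespace Vale.Agent.P333.H70

open Vale.Agent.P333 Vale.Agent.P333.U Vale.Agent.P333.E Vale.Agent.P333.G Vale.Agent.Lib.PolyTime

/-- position of the first string of `c` which occurs in `d` -/
def comI (c d : List (List ℕ)) : Option ℕ :=
  (List.range c.length).find? (fun i => decide (c.getD i [] ∈ d))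

/-- position of `s` in `d` -/
def posI (d : List (List ℕ)) (s : List ℕ) : ℕ :=
  ((List.range d.length).find? (fun j => decide (d.getD j [] = s))).getD 0

/-- the splice at position `i` of `c` -/
def splI (c d : List (List ℕ)) (i : ℕ) : List (List ℕ) :=
  rotA c i ++ rotA d (posI d (c.getD i []))

/-- one step: the current walk and the walks kept apart -/
def insStep (st : List (List ℕ) × List (List (List ℕ))) (d : List (List ℕ)) :
    List (List ℕ) × List (List (List ℕ)) :=
  if (comI st.1 d).isSome then (splI st.1 d ((comI st.1 d).getD 0), st.2) else (st.1, d :: st.2)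

/-- insert a walk -/
def insertW (Om : List (List (List ℕ))) (c : List (List ℕ)) : List (List (List ℕ)) :=
  (Om.foldl insStep (c, [])).1 :: (Om.foldl insStep (c, [])).2

/-- all walks -/
def spliceAll (ws : List (List (List ℕ))) : List (List (List ℕ)) := ws.foldl insertW []

/-! ### Basic facts -/

theorem comI_some {x d : List (List ℕ)} {i : ℕ} (h : comI x d = some i) :
    ∃ hi : i < x.length, x[i] ∈ d := by
  unfold comI at h
  have h1 := List.mem_of_find?_eq_some h
  have h2 := List.find?_some h
  have hi := List.mem_range.1 h1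
  refine ⟨hi, ?_⟩
  rw [decide_eq_true_iff, List.getD_eq_getElem _ _ hi] at h2
  exact h2

theorem comI_none {c d : List (List ℕ)} (h : comI c d = none) : ∀ s ∈ c, s ∉ d := by
  unfold comI at h
  intro s hs hd
  obtain ⟨i, hi, rfl⟩ := List.getElem_of_mem hs
  have := List.find?_eq_none.1 h i (List.mem_range.2 hi)
  apply this
  rw [decide_eq_true_iff, List.getD_eq_getElem _ _ hi]
  exact hd

theorem posI_spec {d : List (List ℕ)} {s : List ℕ} (hs : s ∈ d) :
    ∃ hj : posI d s < d.length, d[posI d s] = s := by
  unfold posI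
  rcases h : (List.range d.length).find? (fun j => decide (d.getD j [] = s)) with _ | j
  · exfalso
    obtain ⟨j, hj, rfl⟩ := List.getElem_of_mem hs
    have := List.find?_eq_none.1 h j (List.mem_range.2 hj)
    apply this
    rw [decide_eq_true_iff, List.getD_eq_getElem _ _ hj]
  · have h1 := List.mem_of_find?_eq_some h
    have h2 := List.find?_some h
    have hj := List.mem_range.1 h1
    rw [decide_eq_true_iff, List.getD_eq_getElem _ _ hj] at h2
    exact ⟨hj, h2⟩

theorem rotA_head {x : List (List ℕ)} {i : ℕ} (hi : i < x.length) :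
    ∃ r, rotA x i = x[i] :: r := by
  refine ⟨x.drop (i + 1) ++ x.take i, ?_⟩
  unfold rotA
  rw [List.drop_eq_getElem_cons hi, List.cons_append]

/-- two closed walks spliced at a common string -/
theorem cycW_splice (s : List ℕ) (a b : List (List ℕ)) :
    cycW ((s :: a) ++ (s :: b)) = cycW (s :: a) + cycW (s :: b) := by
  have h1 := E.linW_append (s :: a) s (b ++ [s])
  have h2 : cycW ((s :: a) ++ (s :: b)) = linW ((s :: a) ++ (s :: b) ++ [s]) := by
    rw [List.cons_append, cycW_eq_linW]
  rw [h2, cycW_eq_linW, cycW_eq_linW, List.append_assoc]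
  exact h1

/-- A block `B` which avoids `l[i]` and is an infix of a rotation of `l` is an infix of the
rotation by `i`. -/
theorem infix_rot {l B : List (List ℕ)} {k i : ℕ} (hB : B <:+: l.rotate k) (hi : i < l.length)
    (hs : l[i] ∉ B) (hne : B ≠ []) : B <:+: rotA l i := by
  rw [rotA_eq _ hi.le]
  set n := l.length with hn
  have hn0 : 0 < n := by omega
  -- `l.rotate i = (l.rotate k).rotate m`
  obtain ⟨m, hm, hmk⟩ : ∃ m < n, (k + m) % n = i := by
    refine ⟨(i + (n - k % n)) % n, Nat.mod_lt _ hn0, ?_⟩
    have hk : k % n < n := Nat.mod_lt _ hn0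
    rw [Nat.add_mod_mod, ← Nat.mod_add_mod]
    have : k % n + (i + (n - k % n)) = i + n := by omega
    rw [this, Nat.add_mod_right, Nat.mod_eq_of_lt hi]
  have hrot : l.rotate i = (l.rotate k).rotate m := by
    rw [List.rotate_rotate, ← List.rotate_mod l (k + m), ← hn, hmk]
  set l' := l.rotate k with hl'
  have hlen : l'.length = n := by rw [hl', List.length_rotate]
  have hml' : m < l'.length := by rw [hlen]; exact hm
  have hel : l'[m] = l[i] := by
    simp only [hl']
    rw [List.getElem_rotate]
    congr 1
    rw [← hn, Nat.add_comm m k, hmk]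
  obtain ⟨u, v, huv⟩ := hB
  rw [hrot, List.rotate_eq_drop_append_take hml'.le]
  have hnot : ¬ (u.length ≤ m ∧ m < u.length + B.length) := by
    rintro ⟨h1, h2⟩
    apply hs
    rw [← hel]
    have : l'[m] = B[m - u.length] := by
      have e : l' = u ++ (B ++ v) := by rw [← huv, List.append_assoc]
      have e2 : l'[m] = (u ++ (B ++ v))[m]'(by rw [← e]; exact hml') := by
        congr 1
      rw [e2, List.getElem_append_right h1, List.getElem_append_left]
    rw [this]
    exact List.getElem_mem _
  by_cases hmu : m < u.length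
  · refine List.IsInfix.trans ?_ (List.prefix_append _ _).isInfix
    refine ⟨u.drop m, v, ?_⟩
    rw [← huv, List.append_assoc u B v, List.drop_append_of_le_length hmu.le, List.append_assoc]
  · have h3 : u.length + B.length ≤ m := by
      by_contra h
      exact hnot ⟨by omega, by omega⟩
    refine List.IsInfix.trans ?_ (List.suffix_append _ _).isInfix
    refine ⟨u, v.take (m - (u.length + B.length)), ?_⟩
    have h4 : (u ++ B).length ≤ m := by rw [List.length_append]; exact h3
    rw [← huv, List.take_append, List.take_of_length_le h4, List.length_append]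

/-! ### The invariant -/

/-- blocks of a walk of `G` whose strings occur in no other walk of `G` stay blocks in `W` -/
def Blk (G : List (List (List ℕ))) (W : List (List ℕ)) : Prop :=
  ∀ c R, G.Perm (c :: R) → ∀ B k, B ≠ [] → B <:+: c.rotate k → (∀ s ∈ B, ∀ d ∈ R, s ∉ d) →
    ∃ k', B <:+: W.rotate k'

/-- `W` is a splice of the walks of the group `G` -/
structure Spl (G : List (List (List ℕ))) (W : List (List ℕ)) : Prop where
  ne : G ≠ []
  perm : W.Perm G.flatten
  cyc : cycW W = (G.map cycW).sum
  blk : Blk G W

theorem Spl.single (c : List (List ℕ)) : Spl [c] c := by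
  refine ⟨by simp, by simp, by simp, ?_⟩
  intro c' R h B k _ hB _
  have := List.perm_singleton.1 h.symm
  simp only [List.cons.injEq] at this
  obtain ⟨rfl, -⟩ := this
  exact ⟨k, hB⟩

theorem Spl.wne {G : List (List (List ℕ))} {W : List (List ℕ)} (h : Spl G W)
    (hG : ∀ c ∈ G, c ≠ []) : W ≠ [] := by
  intro hW
  rcases hG' : G with _ | ⟨c, G'⟩
  · exact h.ne hG'
  · have h1 := h.perm
    rw [hW, hG', List.flatten_cons] at h1
    have h2 := h1.nil_eq
    have h3 : c = [] := (List.append_eq_nil_iff.1 h2.symm).1
    exact hG c (by rw [hG']; simp) h3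

/-- half of the block property for a splice -/
theorem blk_half {G1 G2 : List (List (List ℕ))} {W1 W2 : List (List ℕ)} (h1 : Spl G1 W1)
    (h2 : Spl G2 W2) {i : ℕ} (hi : i < W1.length) (hs : W1[i] ∈ W2)
    {c : List (List ℕ)} (hc : c ∈ G1) {R : List (List (List ℕ))} (hp : (G1 ++ G2).Perm (c :: R))
    {B : List (List ℕ)} {k : ℕ} (hne : B ≠ []) (hB : B <:+: c.rotate k)
    (hav : ∀ s ∈ B, ∀ d ∈ R, s ∉ d) : B <:+: rotA W1 i := by
  have hp1 : G1.Perm (c :: G1.erase c) := List.perm_cons_erase hc
  have hp2 : (c :: (G1.erase c ++ G2)).Perm (c :: R) := by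
    refine List.Perm.trans ?_ hp
    exact (hp1.symm.append_right G2)
  have hp3 : (G1.erase c ++ G2).Perm R := hp2.cons_inv
  obtain ⟨k', hk'⟩ := h1.blk c (G1.erase c) hp1 B k hne hB (fun s hs' d hd =>
    hav s hs' d (hp3.mem_iff.1 (List.mem_append_left _ hd)))
  refine infix_rot hk' hi ?_ hne
  intro hmem
  have : W1[i] ∈ G2.flatten := h2.perm.mem_iff.1 hs
  obtain ⟨d, hd, hsd⟩ := List.mem_flatten.1 this
  exact hav _ hmem d (hp3.mem_iff.1 (List.mem_append_right _ hd)) hsd

theorem Spl.splice {G1 G2 : List (List (List ℕ))} {W1 W2 : List (List ℕ)} (h1 : Spl G1 W1)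
    (h2 : Spl G2 W2) {i j : ℕ} (hi : i < W1.length) (hj : j < W2.length) (hij : W1[i] = W2[j]) :
    Spl (G1 ++ G2) (rotA W1 i ++ rotA W2 j) := by
  refine ⟨by simp [h1.ne], ?_, ?_, ?_⟩
  · rw [List.flatten_append]
    exact ((rotA_perm _ _).trans h1.perm).append ((rotA_perm _ _).trans h2.perm)
  · obtain ⟨r1, hr1⟩ := rotA_head hi
    obtain ⟨r2, hr2⟩ := rotA_head hj
    have e1 : cycW (rotA W1 i) = cycW W1 := cycW_rotA _ _
    have e2 : cycW (rotA W2 j) = cycW W2 := cycW_rotA _ _
    rw [List.map_append, List.sum_append, ← h1.cyc, ← h2.cyc, ← e1, ← e2, hr1, hr2, ← hij]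
    exact cycW_splice _ _ _
  · intro c R hp B k hne hB hav
    have hc : c ∈ G1 ++ G2 := hp.mem_iff.2 (by simp)
    refine ⟨0, ?_⟩
    rw [List.rotate_zero]
    rcases List.mem_append.1 hc with hc | hc
    · have hs : W1[i] ∈ W2 := by rw [hij]; exact List.getElem_mem _
      exact (blk_half h1 h2 hi hs hc hp hne hB hav).trans (List.prefix_append _ _).isInfix
    · have hs : W2[j] ∈ W1 := by rw [← hij]; exact List.getElem_mem _
      exact (blk_half h2 h1 hj hs hc (List.perm_append_comm.trans hp) hne hB hav).trans
        (List.suffix_append _ _).isInfix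

/-- disjoint walks -/
def Dj (c d : List (List ℕ)) : Prop := ∀ s ∈ c, s ∉ d

theorem Dj.symm {c d : List (List ℕ)} (h : Dj c d) : Dj d c := fun s hs hc => h s hc hs

/-- The invariant of `insertW`. -/
theorem fold_ins {Om : List (List (List ℕ))} : ∀ (Gs : List (List (List (List ℕ))))
    (W : List (List ℕ)) (G : List (List (List ℕ))) (K : List (List (List ℕ)))
    (GK : List (List (List (List ℕ)))), List.Forall₂ Spl Gs Om → Spl G W →
    List.Forall₂ Spl GK K → Om.Pairwise Dj → K.Pairwise Dj → (∀ d ∈ K, Dj W d) →
    (∀ d ∈ K, ∀ e ∈ Om, Dj d e) →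
    ∃ G' GK', Spl G' (Om.foldl insStep (W, K)).1 ∧
      List.Forall₂ Spl GK' (Om.foldl insStep (W, K)).2 ∧
      (G' :: GK').flatten.Perm ((G :: GK).flatten ++ Gs.flatten) ∧
      ((Om.foldl insStep (W, K)).1 :: (Om.foldl insStep (W, K)).2).Pairwise Dj := by
  induction Om with
  | nil =>
    intro Gs W G K GK hGs hG hGK _ hK hWK _
    cases hGs
    refine ⟨G, GK, hG, hGK, by simp, ?_⟩
    exact List.pairwise_cons.2 ⟨hWK, hK⟩
  | cons d Om ih =>
    intro Gs W G K GK hGs hG hGK hOm hK hWK hKOm
    rcases Gs with _ | ⟨Gd, Gs⟩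
    · cases hGs
    obtain ⟨hd, hGs'⟩ := List.forall₂_cons.1 hGs
    obtain ⟨hOm1, hOm2⟩ := List.pairwise_cons.1 hOm
    rw [List.foldl_cons]
    rcases h : comI W d with _ | i
    · have hst : insStep (W, K) d = (W, d :: K) := by
        simp [insStep, h]
      rw [hst]
      obtain ⟨G', GK', h1, h2, h3, h4⟩ := ih Gs W G (d :: K) (Gd :: GK) hGs' hG
        (List.Forall₂.cons hd hGK) hOm2
        (List.pairwise_cons.2 ⟨fun e he => (hKOm e he d (by simp)).symm, hK⟩)
        (fun e he => by
          rcases List.mem_cons.1 he with rfl | he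
          · exact comI_none h
          · exact hWK e he)
        (fun e he f hf => by
          rcases List.mem_cons.1 he with rfl | he
          · exact hOm1 f hf
          · exact hKOm e he f (List.mem_cons_of_mem _ hf))
      refine ⟨G', GK', h1, h2, h3.trans ?_, h4⟩
      simp only [List.flatten_cons]
      rw [List.append_assoc, List.append_assoc, List.append_assoc]
      refine List.Perm.append_left _ ?_
      rw [← List.append_assoc, ← List.append_assoc]
      exact (List.perm_append_comm).append_right _
    · obtain ⟨hi, hmem⟩ := comI_some h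
      obtain ⟨hj, hj'⟩ := posI_spec hmem
      have hst : insStep (W, K) d = (splI W d i, K) := by
        simp [insStep, h]
      rw [hst]
      have hW' : Spl (G ++ Gd) (splI W d i) := by
        unfold splI
        rw [List.getD_eq_getElem _ _ hi]
        exact hG.splice hd hi hj hj'.symm
      have hperm : (splI W d i).Perm (W ++ d) := by
        unfold splI
        exact (rotA_perm _ _).append (rotA_perm _ _)
      obtain ⟨G', GK', h1, h2, h3, h4⟩ := ih Gs (splI W d i) (G ++ Gd) K GK hGs' hW' hGK hOm2 hK
        (fun e he s hs hse => by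
          rcases List.mem_append.1 (hperm.mem_iff.1 hs) with h5 | h5
          · exact hWK e he s h5 hse
          · exact hKOm e he d (by simp) s hse h5)
        (fun e he f hf => hKOm e he f (List.mem_cons_of_mem _ hf))
      refine ⟨G', GK', h1, h2, h3.trans ?_, h4⟩
      simp only [List.flatten_cons]
      rw [List.append_assoc, List.append_assoc, List.append_assoc]
      refine List.Perm.append_left _ ?_
      rw [← List.append_assoc, ← List.append_assoc]
      exact (List.perm_append_comm).append_right _

theorem insertW_spec {Om : List (List (List ℕ))} {Gs : List (List (List (List ℕ)))}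
    (h : List.Forall₂ Spl Gs Om) (hOm : Om.Pairwise Dj) (c : List (List ℕ)) :
    ∃ Gs', List.Forall₂ Spl Gs' (insertW Om c) ∧ Gs'.flatten.Perm (c :: Gs.flatten) ∧
      (insertW Om c).Pairwise Dj := by
  obtain ⟨G', GK', h1, h2, h3, h4⟩ := fold_ins Gs c [c] [] [] h (Spl.single c)
    List.Forall₂.nil hOm List.Pairwise.nil (by simp) (by simp)
  exact ⟨G' :: GK', List.Forall₂.cons h1 h2, by simpa using h3, h4⟩

theorem foldl_insertW (ws : List (List (List ℕ))) : ∀ (Om : List (List (List ℕ)))
    (Gs : List (List (List (List ℕ)))), List.Forall₂ Spl Gs Om → Om.Pairwise Dj →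
    ∃ Gs', List.Forall₂ Spl Gs' (ws.foldl insertW Om) ∧ Gs'.flatten.Perm (ws ++ Gs.flatten) ∧
      (ws.foldl insertW Om).Pairwise Dj := by
  induction ws with
  | nil => exact fun Om Gs h hOm => ⟨Gs, h, List.Perm.refl _, hOm⟩
  | cons c ws ih =>
    intro Om Gs h hOm
    obtain ⟨Gs1, h1, h2, h3⟩ := insertW_spec h hOm c
    obtain ⟨Gs2, h4, h5, h6⟩ := ih _ Gs1 h1 h3
    refine ⟨Gs2, h4, h5.trans ?_, h6⟩
    exact (List.Perm.append_left ws h2).trans List.perm_middle

/-- **Specification of `spliceAll`.** The walks are partitioned into groups `Gs`, every walk of the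
result is a splice of its group, and the walks of the result are pairwise disjoint. -/
theorem spliceAll_spec (ws : List (List (List ℕ))) :
    ∃ Gs, List.Forall₂ Spl Gs (spliceAll ws) ∧ Gs.flatten.Perm ws ∧
      (spliceAll ws).Pairwise Dj := by
  obtain ⟨Gs, h1, h2, h3⟩ := foldl_insertW ws [] [] List.Forall₂.nil List.Pairwise.nil
  exact ⟨Gs, h1, by simpa using h2, h3⟩

/-- total weight -/
theorem spliceAll_cycW (ws : List (List (List ℕ))) :
    ((spliceAll ws).map cycW).sum = (ws.map cycW).sum := by
  obtain ⟨Gs, h1, h2, -⟩ := spliceAll_spec ws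
  rw [← (h2.map cycW).sum_eq]
  clear h2
  generalize spliceAll ws = Om at h1
  induction h1 with
  | nil => simp
  | cons h _ ih => simp [h.cyc, ih]

/-- strings -/
theorem spliceAll_perm (ws : List (List (List ℕ))) :
    (spliceAll ws).flatten.Perm ws.flatten := by
  obtain ⟨Gs, h1, h2, -⟩ := spliceAll_spec ws
  refine List.Perm.trans ?_ h2.flatten
  clear h2
  generalize spliceAll ws = Om at h1
  induction h1 with
  | nil => simp
  | cons h _ ih =>
    rw [List.flatten_cons, List.flatten_cons, List.flatten_append]
    exact h.perm.append ih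

/-- Blocks: a block `B` of a walk `c` whose strings occur in no other walk is a block of a walk of
the result. -/
theorem spliceAll_blk {ws : List (List (List ℕ))} {c : List (List ℕ)} {R : List (List (List ℕ))}
    (hws : ws.Perm (c :: R)) {B : List (List ℕ)} {k : ℕ} (hne : B ≠ []) (hB : B <:+: c.rotate k)
    (hav : ∀ s ∈ B, ∀ d ∈ R, s ∉ d) :
    ∃ W ∈ spliceAll ws, (∀ s ∈ c, s ∈ W) ∧ ∃ k', B <:+: W.rotate k' := by
  obtain ⟨Gs, h1, h2, -⟩ := spliceAll_spec ws
  have hc : c ∈ Gs.flatten := (h2.trans hws).mem_iff.2 (by simp)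
  obtain ⟨G, hG, hcG⟩ := List.mem_flatten.1 hc
  obtain ⟨a, ha, rfl⟩ := List.getElem_of_mem hG
  have hlen := h1.length_eq
  have ha' : a < (spliceAll ws).length := by omega
  have hs : Spl Gs[a] (spliceAll ws)[a] := List.Forall₂.get h1 ha ha'
  refine ⟨(spliceAll ws)[a], List.getElem_mem _, ?_, ?_⟩
  · intro s hs'
    exact hs.perm.mem_iff.2 (List.mem_flatten.2 ⟨c, hcG, hs'⟩)
  · have hp1 : (Gs[a]).Perm (c :: (Gs[a]).erase c) := List.perm_cons_erase hcG
    refine hs.blk c _ hp1 B k hne hB (fun s hsB d hd => ?_)
    -- the other walks of the group are among `R`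
    have hsub : List.Subperm (Gs[a]) Gs.flatten :=
      (List.sublist_flatten_of_mem (List.getElem_mem ha)).subperm
    have h3 : List.Subperm (c :: (Gs[a]).erase c) (c :: R) :=
      (hp1.symm.subperm.trans hsub).trans (h2.trans hws).subperm
    have h4 : List.Subperm ((Gs[a]).erase c) R := (List.subperm_cons c).1 h3
    exact hav s hsB d (h4.subset hd)

/-! ### Polynomial time -/

variable {A : Set Word} {α β γ : Type*} [Enc α] [Enc β] [Enc γ]

theorem PT_memStr {x : α → List ℕ} {l : α → List (List ℕ)} (hx : PT A x) (hl : PT A l) :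
    PT A (fun a => decide (x a ∈ l a)) :=
  (PT.mem' (PT_eqStr PT.fst' PT.snd') hl hx).congr fun a => by
    rw [Bool.eq_iff_iff]
    simp

theorem PT_comI {c d : α → List (List ℕ)} (hc : PT A c) (hd : PT A d) :
    PT A (fun a => comI (c a) (d a)) := by
  unfold comI
  refine PT.find? (f := fun a i => decide ((c a).getD i [] ∈ d a))
    (PT.range hc.length (PBd.length hc)) ?_
  exact PT_memStr (PT.getD (hc.comp PT.fst') PT.snd' (PT.const [])) (hd.comp PT.fst')

theorem PT_posI {d : α → List (List ℕ)} {s : α → List ℕ} (hd : PT A d) (hs : PT A s) :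
    PT A (fun a => posI (d a) (s a)) := by
  unfold posI
  refine PT.optGetD (PT.find? (f := fun a j => decide ((d a).getD j [] = s a))
    (PT.range hd.length (PBd.length hd)) ?_) (PT.const 0)
  exact PT_eqStr (PT.getD (hd.comp PT.fst') PT.snd' (PT.const [])) (hs.comp PT.fst')

theorem PT_splI {c d : α → List (List ℕ)} {i : α → ℕ} (hc : PT A c) (hd : PT A d) (hi : PT A i) :
    PT A (fun a => splI (c a) (d a) (i a)) := by
  unfold splI
  exact PT.append (PT_rotA hc hi) (PT_rotA hd (PT_posI hd (PT.getD hc hi (PT.const []))))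

theorem PT_insStep {st : α → List (List ℕ) × List (List (List ℕ))} {d : α → List (List ℕ)}
    (hst : PT A st) (hd : PT A d) : PT A (fun a => insStep (st a) (d a)) := by
  unfold insStep
  refine (PT.cond (c := fun a => (comI (st a).1 (d a)).isSome) (PT.isSome (PT_comI hst.fst hd))
    ((PT_splI hst.fst hd (PT.optGetD (PT_comI hst.fst hd) (PT.const 0))).pair hst.snd)
    (hst.fst.pair (PT.cons hd hst.snd))).congr fun a => ?_
  cases (comI (st a).1 (d a)).isSome <;> rfl

theorem esize_rotA (c : List (List ℕ)) (k : ℕ) : esize (rotA c k) = esize c :=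
  G.esize_perm (rotA_perm c k)

theorem insStep_size (st : List (List ℕ) × List (List (List ℕ))) (d : List (List ℕ)) :
    2 * esize (insStep st d).1 + esize (insStep st d).2 ≤
      2 * esize st.1 + esize st.2 + (2 * esize d + 1) := by
  unfold insStep
  split_ifs
  · simp only [splI]
    rw [esize_append, esize_rotA, esize_rotA]
    omega
  · simp only [esize_list_cons]
    omega

theorem foldl_insStep_size (l : List (List (List ℕ))) :
    ∀ st : List (List ℕ) × List (List (List ℕ)),
    2 * esize (l.foldl insStep st).1 + esize (l.foldl insStep st).2 ≤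
      2 * esize st.1 + esize st.2 + esize l := by
  induction l with
  | nil => intro st; simp
  | cons d l ih =>
    intro st
    rw [List.foldl_cons, esize_list_cons]
    have h1 := ih (insStep st d)
    have h2 := insStep_size st d
    omega

theorem esize_take_le' (l : List (List (List ℕ))) (i : ℕ) : esize (l.take i) ≤ esize l := by
  conv_rhs => rw [← List.take_append_drop i l]
  rw [esize_append]
  omega

theorem PT_insertW {Om : α → List (List (List ℕ))} {c : α → List (List ℕ)} (hO : PT A Om)
    (hc : PT A c) : PT A (fun a => insertW (Om a) (c a)) := by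
  unfold insertW
  have h : PT A (fun a => (Om a).foldl insStep (c a, [])) := by
    refine PT.foldl (f := fun _ st d => insStep st d) hO (hc.pair (PT.const []))
      (PT_insStep PT.snd'.fst PT.snd'.snd)
      (b := fun a => 2 * esize (c a) + esize (Om a) + 1)
      ((((PBd.const 2).mul hc.pbd).add hO.pbd).add (PBd.const 1)) fun a i => ?_
    have h1 := foldl_insStep_size ((Om a).take i) (c a, [])
    have h2 := esize_take_le' (Om a) i
    have h3 : esize ([] : List (List (List ℕ))) = 0 := esize_list_nil
    show esize (((Om a).take i).foldl insStep (c a, [])) ≤ _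
    have h4 : esize (((Om a).take i).foldl insStep (c a, [])) =
        2 * esize (((Om a).take i).foldl insStep (c a, [])).1 +
          esize (((Om a).take i).foldl insStep (c a, [])).2 + 1 := esize_pair _ _
    simp only [h3] at h1
    omega
  exact PT.cons h.fst h.snd

theorem insertW_size (Om : List (List (List ℕ))) (c : List (List ℕ)) :
    esize (insertW Om c) ≤ esize Om + (2 * esize c + 1) := by
  unfold insertW
  have h1 := foldl_insStep_size Om (c, [])
  have h3 : esize ([] : List (List (List ℕ))) = 0 := esize_list_nil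
  simp only [h3] at h1
  rw [esize_list_cons]
  omega

theorem foldl_insertW_size (l : List (List (List ℕ))) : ∀ Om : List (List (List ℕ)),
    esize (l.foldl insertW Om) ≤ esize Om + esize l := by
  induction l with
  | nil => intro Om; simp
  | cons c l ih =>
    intro Om
    rw [List.foldl_cons, esize_list_cons]
    have h1 := ih (insertW Om c)
    have h2 := insertW_size Om c
    omega

theorem spliceAll_size (ws : List (List (List ℕ))) : esize (spliceAll ws) ≤ esize ws := by
  have := foldl_insertW_size ws []
  have h3 : esize ([] : List (List (List ℕ))) = 0 := esize_list_nil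
  rw [h3] at this
  simpa [spliceAll] using this

theorem PT_spliceAll {ws : α → List (List (List ℕ))} (hw : PT A ws) :
    PT A (fun a => spliceAll (ws a)) := by
  unfold spliceAll
  refine PT.foldl (f := fun _ Om c => insertW Om c) hw (PT.const [])
    (PT_insertW PT.snd'.fst PT.snd'.snd) (b := fun a => esize (ws a)) hw.pbd fun a i => ?_
  have h1 := foldl_insertW_size ((ws a).take i) []
  have h2 := esize_take_le' (ws a) i
  have h3 : esize ([] : List (List (List ℕ))) = 0 := esize_list_nil
  rw [h3] at h1
  show esize (((ws a).take i).foldl insertW []) ≤ esize (ws a)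
  omega

end Vale.Agent.P333.H70
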