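import Mathlib
import Vale.Agent.P333.Y.Parts
import Vale.Agent.P333.H70.Splice

set_option linter.all false

/-!
# P333, ratio 2: part B3 (splicing) and polynomial time of `spliceAll`
-/

namespace Vale.Agent.P333.H70

open Vale.Agent.P333 Vale.Agent.P333.U Vale.Agent.P333.E Vale.Agent.P333.G Vale.Agent.Lib.PolyTime

theorem Y_spliceAll_eq : Y.spliceAll = spliceAll := rfl

theorem Spl.toY {G : List (List (List ℕ))} {W : List (List ℕ)} (h : Spl G W) : Y.Spl G W :=
  ⟨h.ne, h.perm, h.cyc, h.blk⟩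

/-- B3. -/
theorem partB3 : Y.PartB3 := by
  intro ws
  obtain ⟨Gs, h1, h2, h3⟩ := spliceAll_spec ws
  exact ⟨Gs, h1.imp (fun _ _ h => h.toY), h2, h3⟩

theorem spliceAll_cycW' (ws : List Y.Cir) :
    ((Y.spliceAll ws).map cycW).sum = (ws.map cycW).sum := spliceAll_cycW ws

theorem spliceAll_perm' (ws : List Y.Cir) : (Y.spliceAll ws).flatten.Perm ws.flatten :=
  spliceAll_perm ws

variable {A : Set Word} {α β γ : Type*} [Enc α] [Enc β] [Enc γ]

theorem PT_insertW' {Om : α → List Y.Cir} {c : α → Y.Cir} (hO : PT A Om)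
    (hc : PT A c) : PT A (fun a => Y.insertW (Om a) (c a)) := PT_insertW hO hc

theorem spliceAll_size' (ws : List Y.Cir) : esize (Y.spliceAll ws) ≤ esize ws :=
  spliceAll_size ws

/-- Polynomial time of `Y.spliceAll`. -/
theorem PT_spliceAll' {ws : α → List Y.Cir} (hw : PT A ws) :
    PT A (fun a => Y.spliceAll (ws a)) := PT_spliceAll hw

end Vale.Agent.P333.H70
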