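import Mathlib
import Vale.Agent.P333.Y.Defs
import Vale.Agent.P333.G.Cov
import Vale.Agent.P333.H359.Flow
import Vale.Agent.P333.H212.Subg
import Vale.Agent.P333.H241.TCyc
import Vale.Agent.P333.H950.M0

set_option linter.all false

/-!
P333, ratio `2`, part M4: the subgradient phase of the algorithm.
-/

namespace Vale.Agent.P333.H70

open Vale.Agent.P333 Vale.Agent.P333.U Vale.Agent.P333.E Vale.Agent.P333.G Vale.Agent.P333.Y

/-! ### Averages of permutations -/

section Avg

open Finset

variable {V κ : Type} [Fintype V] [DecidableEq V] [DecidableEq κ]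

/-- The average of the permutations. -/
noncomputable def avg (T : ℕ) (Yt : ℕ → Equiv.Perm V) (u v : V) : ℝ :=
  (∑ t ∈ range T, if Yt t u = v then (1 : ℝ) else 0) / T

theorem avg_feas (P : H359.FD V κ) {T : ℕ} (hT : 0 < T) (Yt : ℕ → Equiv.Perm V) :
    P.Feas ∅ (avg T Yt) := by
  have hT' : (T : ℝ) ≠ 0 := by exact_mod_cast hT.ne'
  constructor
  · intro u v
    unfold avg
    positivity
  · intro u _
    unfold avg
    rw [← Finset.sum_div, Finset.sum_comm]
    simp [hT']
  · intro v _
    unfold avg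
    rw [← Finset.sum_div, Finset.sum_comm]
    have : ∀ t ∈ range T, (∑ u : V, if Yt t u = v then (1 : ℝ) else 0) = 1 := by
      intro t _
      rw [Finset.sum_eq_single ((Yt t).symm v)]
      · simp
      · intro u _ hu
        rw [if_neg]
        intro h
        exact hu (by rw [← h]; simp)
      · simp
    rw [Finset.sum_congr rfl this]
    simp [hT']
  · intro D hD
    simp at hD
  · intro D hD
    simp at hD

theorem avg_f (P : H359.FD V κ) {T : ℕ} (hT : 0 < T) (Yt : ℕ → Equiv.Perm V) (D : κ) :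
    P.f D (avg T Yt) * T = ((∑ t ∈ range T, H212.fl P.lab D (Yt t) : ℕ) : ℝ) := by
  have hT' : (T : ℝ) ≠ 0 := by exact_mod_cast hT.ne'
  unfold H359.FD.f avg
  simp_rw [← Finset.sum_div]
  rw [div_mul_cancel₀ _ hT', Nat.cast_sum]
  have h1 : ∀ u : V, (∑ v ∈ univ.filter (fun v => P.lab v ≠ D),
      ∑ t ∈ range T, if Yt t u = v then (1 : ℝ) else 0) =
      ∑ t ∈ range T, if P.lab (Yt t u) ≠ D then (1 : ℝ) else 0 := by
    intro u
    rw [Finset.sum_comm]
    refine Finset.sum_congr rfl fun t _ => ?_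
    rw [Finset.sum_ite_eq]
    simp
  simp_rw [h1]
  rw [Finset.sum_comm]
  refine Finset.sum_congr rfl fun t _ => ?_
  unfold H212.fl
  rw [← Finset.sum_filter, Finset.filter_filter, Finset.sum_const, nsmul_eq_mul, mul_one]

theorem avg_cost (P : H359.FD V κ) {T : ℕ} (hT : 0 < T) (Yt : ℕ → Equiv.Perm V) :
    P.cost ∅ (avg T Yt) * T = ((∑ v, P.len v : ℕ) : ℝ) * T
      - ((∑ t ∈ range T, H212.gain P.ov (Yt t) : ℕ) : ℝ) := by
  have hT' : (T : ℝ) ≠ 0 := by exact_mod_cast hT.ne'
  unfold H359.FD.cost avg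
  have hg : ∀ u v, ((P.g ∅ u v : ℤ) : ℝ) = 2 * (P.ov u v : ℝ) := by
    intro u v
    unfold H359.FD.g
    simp
  have hK : ((P.K ∅ : ℤ) : ℝ) = 2 * ((∑ v, P.len v : ℕ) : ℝ) := by
    unfold H359.FD.K
    simp [Finset.mul_sum]
  have h1 : (∑ u, ∑ v, (∑ t ∈ range T, if Yt t u = v then (1 : ℝ) else 0) / T *
      ((P.g ∅ u v : ℤ) : ℝ)) = 2 * ((∑ t ∈ range T, H212.gain P.ov (Yt t) : ℕ) : ℝ) / T := by
    simp_rw [hg, div_mul_eq_mul_div, ← Finset.sum_div]
    congr 1
    simp_rw [Finset.sum_mul]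
    have h2 : ∀ u : V, (∑ v, ∑ t ∈ range T, (if Yt t u = v then (1 : ℝ) else 0) *
        (2 * (P.ov u v : ℝ))) = ∑ t ∈ range T, 2 * (P.ov u (Yt t u) : ℝ) := by
      intro u
      rw [Finset.sum_comm]
      refine Finset.sum_congr rfl fun t _ => ?_
      simp
    simp_rw [h2]
    rw [Finset.sum_comm, Nat.cast_sum, Finset.mul_sum]
    refine Finset.sum_congr rfl fun t _ => ?_
    unfold H212.gain
    rw [Nat.cast_sum, Finset.mul_sum]
  rw [hK, h1]
  field_simp

end Avg

/-! ### The rounds -/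

section Rounds

variable {L : List Cir}

theorem nodes_nil (L : List Cir) : nodes L [] = L.flatten.map (fun s => [s]) := by
  unfold nodes
  induction L with
  | nil => rfl
  | cons c r ih =>
    rw [List.flatMap_cons, ih, List.flatten_cons, List.map_append]
    simp

theorem mem_iff_lab (hnd : L.flatten.Nodup) {s : List ℕ} {k : ℕ} (hk : k < L.length)
    (hs : s ∈ L.flatten) : s ∈ L.getD k [] ↔ Y.lab L s = k := by
  have hex : ∃ c ∈ L, s ∈ c := by
    obtain ⟨c, h1, h2⟩ := List.mem_flatten.1 hs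
    exact ⟨c, h1, h2⟩
  have hlt : Y.lab L s < L.length := by
    unfold Y.lab
    rw [List.findIdx_lt_length]
    obtain ⟨c, h1, h2⟩ := hex
    exact ⟨c, h1, by simpa using h2⟩
  have hmem : s ∈ L[Y.lab L s] := by
    have := List.findIdx_getElem (xs := L) (p := fun c => decide (s ∈ c)) (w := hlt)
    exact of_decide_eq_true this
  rw [List.getD_eq_getElem _ _ hk]
  constructor
  · intro h
    by_contra hne
    have hp := (List.nodup_flatten.1 hnd).2
    rw [List.pairwise_iff_getElem] at hp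
    rcases lt_or_gt_of_ne hne with h1 | h1
    · exact hp _ _ hlt hk h1 hmem h
    · exact hp _ _ hk hlt h1 h hmem
  · intro h
    subst h
    exact hmem

theorem lab_lt' {s : List ℕ} (hs : s ∈ L.flatten) : Y.lab L s < L.length := by
  obtain ⟨c, h1, h2⟩ := List.mem_flatten.1 hs
  unfold Y.lab
  rw [List.findIdx_lt_length]
  exact ⟨c, h1, by simpa using h2⟩

/-- Circle of a string. -/
def labW (L : List Cir) (v : Fin L.flatten.length) : ℕ := Y.lab L (L.flatten.get v)

/-- Overlaps. -/
def gS (L : List Cir) (u v : Fin L.flatten.length) : ℕ := ov (L.flatten.get u) (L.flatten.get v)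

/-- Big circles. -/
def bigS (L : List Cir) : Finset ℕ :=
  (Finset.range L.length).filter (fun k => G.big (L.getD k []) = true)

theorem countP_range (p : ℕ → Bool) (n : ℕ) :
    (List.range n).countP p = ∑ i : Fin n, if p i = true then 1 else 0 := by
  rw [← Finset.sum_range (fun i => if p i = true then 1 else 0)]
  induction n with
  | zero => simp
  | succ n ih =>
    rw [List.range_succ, List.countP_append, ih, Finset.sum_range_succ]
    simp [List.countP_cons]

theorem headD_nodes (i : ℕ) (hi : i < L.flatten.length) :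
    ((nodes L []).getD i []).headD [] = L.flatten[i] := by
  rw [nodes_nil, List.getD_eq_getElem _ _ (by rw [List.length_map]; exact hi), List.getElem_map]
  rfl

theorem length_nodes : (nodes L []).length = L.flatten.length := by
  rw [nodes_nil, List.length_map]

theorem lv_eq (hnd : L.flatten.Nodup) {P : List ℕ} {σ : Equiv.Perm (Fin L.flatten.length)}
    (hσ : ∀ i, ((σ i : Fin L.flatten.length) : ℕ) = P.getD i 0) {k : ℕ} (hk : k < L.length) :
    lv (nodes L []) P (L.getD k []) = H212.fl (labW L) k σ := by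
  unfold lv H212.fl
  rw [length_nodes, countP_range, Finset.card_filter]
  refine Finset.sum_congr rfl fun i _ => ?_
  have h1 := headD_nodes (L := L) i i.2
  have h2 : ((nodes L []).getD (P.getD i 0) []).headD [] = L.flatten.get (σ i) := by
    rw [← hσ i, headD_nodes (L := L) _ (σ i).2]
    rfl
  rw [h1, h2]
  have e1 := mem_iff_lab hnd hk (List.getElem_mem i.2)
  have e2 := mem_iff_lab hnd hk (List.get_mem L.flatten (σ i))
  have e3 : (decide (L.flatten[(i : ℕ)] ∈ L.getD k []) &&
      !decide (L.flatten.get (σ i) ∈ L.getD k [])) = true ↔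
      labW L i = k ∧ labW L (σ i) ≠ k := by
    rw [Bool.and_eq_true, decide_eq_true_eq, Bool.not_eq_true', decide_eq_false_iff_not, e1, e2]
    rfl
  by_cases h : labW L i = k ∧ labW L (σ i) ≠ k
  · rw [if_pos (e3.2 h), if_pos h]
  · rw [if_neg (fun h' => h (e3.1 h')), if_neg h]

theorem length_smat (R : ℕ) (L N : List Cir) (μ : List ℕ) : (smat R L N μ).length = N.length := by
  simp [smat]

theorem ent_smat (R : ℕ) (μ : List ℕ) (i j : Fin L.flatten.length) :
    ent (smat R L (nodes L []) μ) i j = R * gS L i j +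
      if labW L i = labW L j then 0 else μ.getD (labW L i) 0 := by
  unfold ent smat
  have hi : (i : ℕ) < (nodes L []).length := by rw [length_nodes]; exact i.2
  have hj : (j : ℕ) < (nodes L []).length := by rw [length_nodes]; exact j.2
  rw [List.getD_eq_getElem (List.map _ (nodes L [])) [] (by rw [List.length_map]; exact hi),
    List.getElem_map,
    List.getD_eq_getElem (List.map _ (nodes L [])) 0 (by rw [List.length_map]; exact hj),
    List.getElem_map]
  have h1 : ((nodes L [])[(i : ℕ)]).headD [] = L.flatten.get i := by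
    have := headD_nodes (L := L) i i.2
    rw [List.getD_eq_getElem _ _ hi] at this
    exact this
  have h2 : ((nodes L [])[(j : ℕ)]).headD [] = L.flatten.get j := by
    have := headD_nodes (L := L) j j.2
    rw [List.getD_eq_getElem _ _ hj] at this
    exact this
  rw [h1, h2]
  show R * gS L i j + (if decide (labW L i = labW L j) = true then 0 else μ.getD (labW L i) 0) = _
  by_cases h : labW L i = labW L j
  · rw [if_pos (decide_eq_true h), if_pos h]
  · rw [if_neg (by rw [decide_eq_true_eq]; exact h), if_neg h]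

/-- Value of an assignment. -/
theorem val_smat (R : ℕ) (μ : List ℕ) (hμ : ∀ k, k ∉ bigS L → μ.getD k 0 = 0) {P : List ℕ}
    {σ : Equiv.Perm (Fin L.flatten.length)}
    (hσ : ∀ i, ((σ i : Fin L.flatten.length) : ℕ) = P.getD i 0) :
    asgVal (smat R L (nodes L []) μ) P =
      ∑ v, H212.wt (labW L) (bigS L) (gS L) R (fun k => μ.getD k 0) v (σ v) := by
  unfold asgVal
  rw [length_smat, length_nodes, sum_range_eq]
  refine Finset.sum_congr rfl fun i _ => ?_
  rw [← hσ i, ent_smat]
  unfold H212.wt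
  congr 1
  by_cases h : labW L i = labW L (σ i)
  · rw [if_pos h, if_neg]
    exact fun h' => h'.2 h.symm
  · rw [if_neg h]
    by_cases hb : labW L i ∈ bigS L
    · rw [if_pos ⟨hb, fun h' => h h'.symm⟩]
    · rw [if_neg (fun h' => hb h'.1), hμ _ hb]

theorem sqMat_smat {B R T : ℕ} {μ : List ℕ} (hB : ∀ s ∈ L.flatten, s.length ≤ B)
    (hμ : ∀ k, μ.getD k 0 ≤ T) : SqMat (smat R L (nodes L []) μ) (R * B + T) := by
  refine ⟨fun row hrow => ?_, fun row hrow x hx => ?_⟩
  · simp only [smat, List.mem_map] at hrow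
    obtain ⟨s, -, rfl⟩ := hrow
    simp [smat]
  · simp only [smat, List.mem_map] at hrow
    obtain ⟨n, hn, rfl⟩ := hrow
    simp only [List.mem_map] at hx
    obtain ⟨m, hm, rfl⟩ := hx
    rw [nodes_nil] at hn
    obtain ⟨s, hs, rfl⟩ := List.mem_map.1 hn
    have h1 := ov_le_left s (m.headD [])
    have h2 := hB s hs
    have h3 : R * ov s (m.headD []) ≤ R * B := Nat.mul_le_mul_left _ (h1.trans h2)
    have h4 := hμ (Y.lab L s)
    show R * ov s (m.headD []) + _ ≤ _
    split_ifs
    · omega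
    · exact Nat.add_le_add h3 h4

variable (asg : List Unit × List (List ℕ) → List ℕ)

/-- The states. -/
def stt (B R T : ℕ) (L : List Cir) (t : ℕ) : List ℕ × List ℕ :=
  (subStep asg B R T L)^[t] ([], [])

theorem stt_succ (B R T : ℕ) (L : List Cir) (t : ℕ) :
    stt asg B R T L (t + 1) = subStep asg B R T L (stt asg B R T L t) := by
  unfold stt
  rw [Function.iterate_succ_apply']

theorem getD_map_range (f : ℕ → ℕ) (n k : ℕ) :
    ((List.range n).map f).getD k 0 = if k < n then f k else 0 := by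
  split_ifs with h
  · rw [List.getD_eq_getElem _ _ (by simpa using h)]
    simp
  · rw [List.getD_eq_default _ _ (by simpa using h)]

theorem stt_mu (B R T : ℕ) (L : List Cir) (t k : ℕ) :
    (stt asg B R T L (t + 1)).1.getD k 0 = if k ∈ bigS L then
      (stt asg B R T L t).1.getD k 0 + 1 -
        lv (nodes L []) (subP asg B R T L (stt asg B R T L t).1) (L.getD k []) else 0 := by
  rw [stt_succ]
  unfold subStep
  show ((List.range L.length).map _).getD k 0 = _
  rw [getD_map_range]
  have hb : k ∈ bigS L ↔ k < L.length ∧ G.big (L.getD k []) = true := by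
    unfold bigS
    rw [Finset.mem_filter, Finset.mem_range]
  by_cases h1 : k < L.length
  · by_cases h2 : G.big (L.getD k []) = true
    · rw [if_pos h1, if_pos h2, if_pos (hb.2 ⟨h1, h2⟩)]
    · rw [if_pos h1, if_neg h2, if_neg (fun h => h2 (hb.1 h).2)]
  · rw [if_neg h1, if_neg (fun h => h1 (hb.1 h).1)]

theorem stt_sum (B R T : ℕ) (L : List Cir) (t k : ℕ) (hk : k < L.length) :
    (stt asg B R T L t).2.getD k 0 = ∑ s ∈ Finset.range t,
      lv (nodes L []) (subP asg B R T L (stt asg B R T L s).1) (L.getD k []) := by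
  induction t with
  | zero => simp [stt]
  | succ t ih =>
    rw [stt_succ, Finset.sum_range_succ, ← ih]
    unfold subStep
    show ((List.range L.length).map _).getD k 0 = _
    rw [getD_map_range, if_pos hk]

theorem stt_mu_le (B R T : ℕ) (L : List Cir) (t k : ℕ) : (stt asg B R T L t).1.getD k 0 ≤ t := by
  induction t with
  | zero => simp [stt]
  | succ t ih =>
    rw [stt_mu]
    split_ifs
    · omega
    · omega

theorem stt_mu_zero (B R T : ℕ) (L : List Cir) (t k : ℕ) (hk : k ∉ bigS L) :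
    (stt asg B R T L t).1.getD k 0 = 0 := by
  cases t with
  | zero => simp [stt]
  | succ t => rw [stt_mu, if_neg hk]

variable {asg}

/-- The subgradient phase. -/
theorem sub_core (ha : AsgOk asg) (hnd : L.flatten.Nodup) {B : ℕ}
    (hB : ∀ s ∈ L.flatten, s.length ≤ B) (R T : ℕ) :
    ∃ Yt : ℕ → Equiv.Perm (Fin L.flatten.length),
      H212.Sub (labW L) (bigS L) (gS L) R T (fun t k => (stt asg B R T L t).1.getD k 0) Yt ∧
      ∀ k < L.length, (stt asg B R T L T).2.getD k 0 =
        ∑ t ∈ Finset.range T, H212.fl (labW L) k (Yt t) := by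
  have key : ∀ t, ∃ σ : Equiv.Perm (Fin L.flatten.length), t < T →
      (∀ i, ((σ i : Fin L.flatten.length) : ℕ) =
        (subP asg B R T L (stt asg B R T L t).1).getD i 0) ∧
      ∀ Z : Equiv.Perm (Fin L.flatten.length),
        ∑ v, H212.wt (labW L) (bigS L) (gS L) R (fun k => (stt asg B R T L t).1.getD k 0) v (Z v) ≤
        ∑ v, H212.wt (labW L) (bigS L) (gS L) R (fun k => (stt asg B R T L t).1.getD k 0) v (σ v) := by
    intro t
    by_cases ht : t < T
    · have h := ha (List.replicate (R * B + T) ()) (smat R L (nodes L []) (stt asg B R T L t).1) (by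
        rw [List.length_replicate]
        exact sqMat_smat hB fun k => (stt_mu_le asg B R T L t k).trans ht.le)
      rw [length_smat, length_nodes] at h
      obtain ⟨σ, hσ⟩ := exists_perm_of_assign h.1
      refine ⟨σ, fun _ => ⟨hσ, fun Z => ?_⟩⟩
      obtain ⟨P, hP, hZ⟩ := exists_assign_of_perm Z
      rw [← val_smat R _ (stt_mu_zero asg B R T L t) hZ,
        ← val_smat R _ (stt_mu_zero asg B R T L t) hσ]
      exact h.2 P hP
    · exact ⟨1, fun h => absurd h ht⟩
  choose Yt hYt using key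
  refine ⟨Yt, ⟨?_, ?_, ?_⟩, ?_⟩
  · intro D _
    simp [stt]
  · intro t ht D hD
    show (stt asg B R T L (t + 1)).1.getD D 0 = _
    have hDl : D < L.length := by
      unfold bigS at hD
      exact Finset.mem_range.1 (Finset.mem_filter.1 hD).1
    rw [stt_mu, if_pos hD, lv_eq hnd (hYt t ht).1 hDl]
  · intro t ht Z
    exact (hYt t ht).2 Z
  · intro k hk
    rw [stt_sum asg B R T L T k hk]
    refine Finset.sum_congr rfl fun t ht => ?_
    rw [lv_eq hnd (hYt t (Finset.mem_range.1 ht)).1 hk]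

end Rounds

/-! ### The instance -/

theorem fl_congr {V κ : Type} [Fintype V] [DecidableEq κ] {l l' : V → κ} (h : ∀ v, l v = l' v)
    (D : κ) (Y : Equiv.Perm V) : H212.fl l D Y = H212.fl l' D Y := by
  rw [show l = l' from funext h]

theorem sum_get_length (l : List (List ℕ)) :
    ∑ v : Fin l.length, (l.get v).length = l.flatten.length := by
  rw [List.length_flatten, ← Fin.sum_univ_fun_getElem]
  rfl

theorem pow_aux (B m : ℕ) (hB : 1 ≤ B) (hm : m ≤ B) :
    (B ^ 4) ^ 2 * (2 * parR B * B + m ^ 2) ≤ parT B := by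
  unfold parR parT
  have h1 : m ^ 2 ≤ B ^ 5 := by
    calc m ^ 2 ≤ B ^ 2 := Nat.pow_le_pow_left hm 2
      _ ≤ B ^ 5 := Nat.pow_le_pow_right (by omega) (by norm_num)
  have h2 : 2 * (16 * B ^ 4) * B + m ^ 2 ≤ 4096 * B ^ 5 := by
    have : 2 * (16 * B ^ 4) * B = 32 * B ^ 5 := by ring
    omega
  calc (B ^ 4) ^ 2 * (2 * (16 * B ^ 4) * B + m ^ 2) ≤ (B ^ 4) ^ 2 * (4096 * B ^ 5) :=
        Nat.mul_le_mul_left _ h2
    _ = 4096 * B ^ 13 := by ring
    _ ≤ 4096 * B ^ 20 := Nat.mul_le_mul_left _ (Nat.pow_le_pow_right (by omega) (by norm_num))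

/-- The average of the rounds, for parameters `R`, `T`. -/
theorem sub_frac_aux {asg : List Unit × List (List ℕ) → List ℕ} (ha : AsgOk asg)
    {S : List (List ℕ)} {L : List Cir} (hS : Sfree S) (hL : MinCover S L)
    (P : H359.FD (Fin L.flatten.length) ℕ)
    (hlab : ∀ v, P.lab v = Y.lab L (L.flatten.get v))
    (hov : ∀ u v, P.ov u v = ov (L.flatten.get u) (L.flatten.get v))
    (hlen : ∀ v, P.len v = (L.flatten.get v).length)
    (σ : Equiv.Perm (Fin L.flatten.length))
    (hσ : ∀ k < L.length, G.big (L.getD k []) = true →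
      ∃ v, L.flatten.get v ∈ L.getD k [] ∧ L.flatten.get (σ v) ∉ L.getD k [])
    (R T : ℕ) (hT : 0 < T) (hR : R = 16 * bnd S ^ 4)
    (hpow : (bnd S ^ 4) ^ 2 * (2 * R * bnd S + L.flatten.length ^ 2) ≤ T) :
    ∃ x0 : Fin L.flatten.length → Fin L.flatten.length → ℝ, P.Feas ∅ x0 ∧
      (∀ k < L.length, P.f k x0 * (T : ℕ) = ((stt asg (bnd S) R T L T).2.getD k 0 : ℕ)) ∧
      (∀ k < L.length, G.big (L.getD k []) = true → 1 - 1 / (bnd S : ℝ) ^ 4 ≤ P.f k x0) ∧
      2 * P.cost ∅ x0 ≤ 2 * (G.cost ov L.flatten σ : ℕ) + 1 / (8 * (bnd S : ℝ) ^ 2) := by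
  have hnd : L.flatten.Nodup := hL.perm.nodup_iff.2 (X.XT607.sfree_nodup hS)
  have hB1 : 1 ≤ bnd S := by unfold bnd; omega
  have hlenB : ∀ s ∈ L.flatten, s.length ≤ bnd S := fun s hs =>
    (H950.length_lt_bnd (hL.perm.mem_iff.1 hs)).le
  have hm : L.flatten.length ≤ bnd S := by
    have h1 : L.flatten.length ≤ L.flatten.flatten.length := by
      rw [← sum_get_length]
      calc L.flatten.length = ∑ v : Fin L.flatten.length, 1 := by simp
        _ ≤ _ := Finset.sum_le_sum fun v _ => List.length_pos_iff.2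
          (hS.1 _ (hL.perm.mem_iff.1 (List.get_mem _ _)))
    have h2 : L.flatten.flatten.length = S.flatten.length := (hL.perm.flatten).length_eq
    unfold bnd
    omega
  have hsumlen : ∑ v : Fin L.flatten.length, (L.flatten.get v).length ≤ bnd S := by
    rw [sum_get_length, (hL.perm.flatten).length_eq]
    unfold bnd
    omega
  obtain ⟨Yt, hY, hsum⟩ := sub_core ha hnd hlenB R T
  have hfl : ∀ D Y, H212.fl P.lab D Y = H212.fl (labW L) D Y := fun D Y => fl_congr hlab D Y
  have hgain : ∀ Y, H212.gain P.ov Y = H212.gain (gS L) Y := by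
    intro Y
    unfold H212.gain
    exact Finset.sum_congr rfl fun v _ => hov v _
  have hgle : ∀ Y : Equiv.Perm (Fin L.flatten.length), H212.gain (gS L) Y ≤ bnd S := by
    intro Y
    refine le_trans (Finset.sum_le_sum fun v _ => ?_) hsumlen
    exact ov_le_left _ _
  have hσ' : ∀ D ∈ bigS L, 1 ≤ H212.fl (labW L) D σ := by
    intro D hD
    obtain ⟨h1, h2⟩ := Finset.mem_filter.1 hD
    rw [Finset.mem_range] at h1
    obtain ⟨v, h3, h4⟩ := hσ D h1 h2
    unfold H212.fl
    rw [Nat.one_le_iff_ne_zero, ← Nat.pos_iff_ne_zero, Finset.card_pos]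
    refine ⟨v, Finset.mem_filter.2 ⟨Finset.mem_univ _, ?_, ?_⟩⟩
    · exact (mem_iff_lab hnd h1 (List.get_mem _ _)).1 h3
    · exact fun h => h4 ((mem_iff_lab hnd h1 (List.get_mem _ _)).2 h)
  have hcard : Fintype.card (Fin L.flatten.length) = L.flatten.length := Fintype.card_fin _
  have hTr : (0 : ℝ) < (T : ℕ) := by exact_mod_cast hT
  have hBr : (1 : ℝ) ≤ (bnd S : ℝ) := by exact_mod_cast hB1
  refine ⟨avg T Yt, avg_feas P hT Yt, ?_, ?_, ?_⟩
  · intro k hk
    rw [avg_f P hT Yt k, hsum k hk]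
    exact congrArg Nat.cast (Finset.sum_congr rfl fun t _ => hfl k _)
  · intro k hk hb
    have hkb : k ∈ bigS L := Finset.mem_filter.2 ⟨Finset.mem_range.2 hk, hb⟩
    have h1 := hY.fl_avg σ hσ' (B := bnd S) (q := bnd S ^ 4)
      (fun t _ => (hgle _).trans (Nat.le_add_left _ _))
      (by rw [hcard]; exact hpow) hkb
    have h2 := avg_f P hT Yt k
    have h3 : (∑ t ∈ Finset.range T, H212.fl P.lab k (Yt t)) =
        ∑ t ∈ Finset.range T, H212.fl (labW L) k (Yt t) :=
      Finset.sum_congr rfl fun t _ => hfl k _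
    rw [h3] at h2
    generalize (∑ t ∈ Finset.range T, H212.fl (labW L) k (Yt t)) = s at h1 h2
    generalize P.f k (avg T Yt) = y at h2 ⊢
    generalize bnd S = B at h1 hBr ⊢
    have h4 : (B : ℝ) ^ 4 * T ≤ (B : ℝ) ^ 4 * s + T := by exact_mod_cast h1
    rw [← h2] at h4
    have h5 : (0 : ℝ) < (B : ℝ) ^ 4 := by positivity
    have h6 : (B : ℝ) ^ 4 ≤ (B : ℝ) ^ 4 * y + 1 := by
      have : ((B : ℝ) ^ 4) * T ≤ ((B : ℝ) ^ 4 * y + 1) * T := by linarith
      exact le_of_mul_le_mul_right this hTr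
    rw [sub_le_iff_le_add, ← sub_le_iff_le_add', le_div_iff₀ h5]
    linarith
  · have h1 := hY.gain_avg σ hσ'
    rw [hcard] at h1
    have h2 := avg_cost P hT Yt
    have h3 : (∑ t ∈ Finset.range T, H212.gain P.ov (Yt t)) =
        ∑ t ∈ Finset.range T, H212.gain (gS L) (Yt t) :=
      Finset.sum_congr rfl fun t _ => hgain _
    rw [h3] at h2
    have h4 : (∑ v, P.len v) = ∑ v : Fin L.flatten.length, (L.flatten.get v).length :=
      Finset.sum_congr rfl fun v _ => hlen v
    have h5 : G.cost ov L.flatten σ + H212.gain (gS L) σ =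
        ∑ v : Fin L.flatten.length, (L.flatten.get v).length := by
      unfold G.cost H212.gain
      rw [← Finset.sum_add_distrib]
      refine Finset.sum_congr rfl fun v _ => ?_
      have := ov_le_left (L.flatten.get v) (L.flatten.get (σ v))
      show _ - _ + ov (L.flatten.get v) (L.flatten.get (σ v)) = _
      omega
    rw [h4, ← h5] at h2
    generalize (∑ t ∈ Finset.range T, H212.gain (gS L) (Yt t)) = s at h1 h2
    generalize P.cost ∅ (avg T Yt) = y at h2 ⊢
    generalize H212.gain (gS L) σ = gs at h1 h2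
    generalize G.cost ov L.flatten σ = cs at h2 ⊢
    generalize L.flatten.length = m at h1 hm
    generalize bnd S = B at h1 hBr hm hR ⊢
    subst hR
    have h6 : 2 * (16 * (B : ℝ) ^ 4) * (T * gs) ≤ 2 * (16 * (B : ℝ) ^ 4) * s + T * (m : ℝ) ^ 2 := by
      exact_mod_cast h1
    have hmr : (m : ℝ) ^ 2 ≤ (B : ℝ) ^ 2 := by
      have : (m : ℝ) ≤ B := by exact_mod_cast hm
      exact pow_le_pow_left₀ (Nat.cast_nonneg _) this 2
    have h2' : y * T = (cs + gs) * T - s := by rw [h2]; push_cast; ring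
    have h7 : T * (m : ℝ) ^ 2 ≤ T * (B : ℝ) ^ 2 := mul_le_mul_of_nonneg_left hmr hTr.le
    have h8 : 32 * (B : ℝ) ^ 4 * (y * T) ≤ 32 * (B : ℝ) ^ 4 * (cs * T) + T * (B : ℝ) ^ 2 := by
      rw [h2']
      linarith
    have h9 : 32 * (B : ℝ) ^ 4 * y ≤ 32 * (B : ℝ) ^ 4 * cs + (B : ℝ) ^ 2 := by
      have : (32 * (B : ℝ) ^ 4 * y) * T ≤ (32 * (B : ℝ) ^ 4 * cs + (B : ℝ) ^ 2) * T := by linarith
      exact le_of_mul_le_mul_right this hTr
    have hb0 : (0 : ℝ) < B := by linarith
    have h10 : 1 / (8 * (B : ℝ) ^ 2) * (16 * (B : ℝ) ^ 4) = 2 * (B : ℝ) ^ 2 := by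
      field_simp; norm_num
    have h11 : (0 : ℝ) < 16 * (B : ℝ) ^ 4 := by positivity
    have h12 : 2 * y * (16 * (B : ℝ) ^ 4) ≤ (2 * cs + 1 / (8 * (B : ℝ) ^ 2)) * (16 * (B : ℝ) ^ 4) := by
      rw [add_mul, h10]
      have : 0 ≤ (B : ℝ) ^ 2 := by positivity
      linarith
    exact le_of_mul_le_mul_right h12 h11

/-- M4: the result of the first phase is a fractional solution. -/
theorem sub_frac {asg : List Unit × List (List ℕ) → List ℕ} (ha : AsgOk asg)
    {S : List (List ℕ)} {L : List Cir} (hS : Sfree S) (hL : MinCover S L)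
    (P : H359.FD (Fin L.flatten.length) ℕ)
    (hlab : ∀ v, P.lab v = Y.lab L (L.flatten.get v))
    (hov : ∀ u v, P.ov u v = ov (L.flatten.get u) (L.flatten.get v))
    (hlen : ∀ v, P.len v = (L.flatten.get v).length)
    (σ : Equiv.Perm (Fin L.flatten.length))
    (hσ : ∀ k < L.length, G.big (L.getD k []) = true →
      ∃ v, L.flatten.get v ∈ L.getD k [] ∧ L.flatten.get (σ v) ∉ L.getD k []) :
    ∃ x0 : Fin L.flatten.length → Fin L.flatten.length → ℝ, P.Feas ∅ x0 ∧
      (∀ k < L.length, P.f k x0 * (parT (bnd S) : ℕ) = ((sub asg (bnd S) L).getD k 0 : ℕ)) ∧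
      (∀ k < L.length, G.big (L.getD k []) = true → 1 - 1 / (bnd S : ℝ) ^ 4 ≤ P.f k x0) ∧
      2 * P.cost ∅ x0 ≤ 2 * (G.cost ov L.flatten σ : ℕ) + 1 / (8 * (bnd S : ℝ) ^ 2) := by
  have hB1 : 1 ≤ bnd S := by unfold bnd; omega
  have hm : L.flatten.length ≤ bnd S := by
    have h1 : L.flatten.length ≤ L.flatten.flatten.length := by
      rw [← sum_get_length]
      calc L.flatten.length = ∑ v : Fin L.flatten.length, 1 := by simp
        _ ≤ _ := Finset.sum_le_sum fun v _ => List.length_pos_iff.2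
          (hS.1 _ (hL.perm.mem_iff.1 (List.get_mem _ _)))
    have h2 : L.flatten.flatten.length = S.flatten.length := (hL.perm.flatten).length_eq
    unfold bnd
    omega
  exact sub_frac_aux ha hS hL P hlab hov hlen σ hσ (parR (bnd S)) (parT (bnd S))
    (by unfold parT; positivity) rfl (pow_aux _ _ hB1 hm)

end Vale.Agent.P333.H70
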