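import Mathlib
import Vale.Agent.P333.H70.M4
import Vale.Agent.P333.H359.M5

set_option linter.all false

/-!
P333, ratio `2`, part M4: final form.
-/

namespace Vale.Agent.P333.H70

open Vale.Agent.P333 Vale.Agent.P333.U Vale.Agent.P333.E Vale.Agent.P333.G Vale.Agent.P333.Y

theorem sfree_perm {S S' : List (List ℕ)} (h : S'.Perm S) (hS : Sfree S) : Sfree S' := by
  refine ⟨fun s hs => hS.1 s (h.mem_iff.1 hs), ?_⟩
  exact h.symm.pairwise hS.2 fun {a b} hab => ⟨hab.2, hab.1⟩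

/-- M4. -/
theorem m4 : H359.M4 := by
  intro asg ha S L T hS hL hT h2
  have hS' : Sfree L.flatten := sfree_perm hL.perm hS
  have hT' : IsSuperstring L.flatten T := fun s hs => hT s (hL.perm.mem_iff.1 hs)
  have hnd : L.flatten.Nodup := X.XT607.sfree_nodup hS'
  have hmem : ∀ k (hk : k < L.length), ∃ s, s ∈ L.getD k [] ∧ s ∈ L.flatten := by
    intro k hk
    rw [List.getD_eq_getElem _ _ hk]
    obtain ⟨s, hs⟩ := List.exists_mem_of_ne_nil _ (hL.ne _ (List.getElem_mem hk))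
    exact ⟨s, hs, List.mem_flatten.2 ⟨_, List.getElem_mem hk, hs⟩⟩
  have hne : L.flatten ≠ [] := by
    obtain ⟨s, -, hs⟩ := hmem 0 (by omega)
    exact List.ne_nil_of_mem hs
  obtain ⟨σ, hc, -, hlv⟩ := H241.tCyc L.flatten T hS' hne hT'
  obtain ⟨x0, h3, h4, h5, h6⟩ := sub_frac ha hS hL (H359.fd hS hL) (fun v => rfl)
    (fun u v => rfl) (fun v => rfl) σ (by
      intro k hk _
      obtain ⟨s, hs1, hs2⟩ := hmem k hk
      obtain ⟨j, hj, hjk⟩ : ∃ j, j < L.length ∧ j ≠ k := by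
        by_cases h0 : k = 0
        · exact ⟨1, by omega, by omega⟩
        · exact ⟨0, by omega, fun h => h0 h.symm⟩
      obtain ⟨t, ht1, ht2⟩ := hmem j hj
      refine hlv (L.getD k []) ⟨s, hs1, hs2⟩ ⟨t, ht2, fun ht3 => hjk ?_⟩
      rw [← (mem_iff_lab hnd hj ht2).1 ht1, ← (mem_iff_lab hnd hk ht2).1 ht3])
  refine ⟨x0, h3, ?_, ?_, ?_⟩
  · intro k hk
    exact h4 k (Finset.mem_range.1 (Finset.mem_filter.1 hk).1)
  · intro k hk
    obtain ⟨h7, h8⟩ := Finset.mem_filter.1 hk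
    exact h5 k (Finset.mem_range.1 h7) h8
  · refine h6.trans ?_
    have : (G.cost ov L.flatten σ : ℝ) ≤ T.length := by exact_mod_cast hc
    linarith

end Vale.Agent.P333.H70
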