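import Mathlib

/-!
# P333, cut lemma (CLAIM (iii) of the 2-approximation proof)

`w : ℤ → ℕ` is a bi-infinite word with primitive period `L`.
-/

namespace Vale.Agent.P333.H70

/-- the right-infinite suffix of `w` at `p` is lexicographically smaller than the one at `q` -/
def SLt {α : Type*} [LinearOrder α] (w : ℤ → α) (p q : ℤ) : Prop :=
  ∃ k : ℕ, (∀ i : ℕ, i < k → w (p + i) = w (q + i)) ∧ w (p + k) < w (q + k)

section order

variable {α : Type*} [LinearOrder α] {w : ℤ → α}

theorem SLt.irrefl (p : ℤ) : ¬ SLt w p p := by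
  rintro ⟨k, -, h⟩
  exact lt_irrefl _ h

theorem SLt.trans {p q r : ℤ} (h1 : SLt w p q) (h2 : SLt w q r) : SLt w p r := by
  obtain ⟨k, hk, hk'⟩ := h1
  obtain ⟨l, hl, hl'⟩ := h2
  rcases lt_trichotomy k l with h | h | h
  · refine ⟨k, fun i hi => (hk i hi).trans (hl i (hi.trans h)), ?_⟩
    rw [← hl k h]
    exact hk'
  · subst h
    exact ⟨k, fun i hi => (hk i hi).trans (hl i hi), hk'.trans hl'⟩
  · refine ⟨l, fun i hi => (hk i (hi.trans h)).trans (hl i hi), ?_⟩
    rw [hk l h]
    exact hl'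

/-- two different suffixes are comparable -/
theorem SLt.tri (p q : ℤ) : SLt w p q ∨ SLt w q p ∨ ∀ i : ℕ, w (p + i) = w (q + i) := by
  classical
  by_cases h : ∀ i : ℕ, w (p + i) = w (q + i)
  · exact Or.inr (Or.inr h)
  · push Not at h
    have hs := Nat.find_spec h
    have hm : ∀ i : ℕ, i < Nat.find h → w (p + i) = w (q + i) := fun i hi => by
      by_contra hne
      exact Nat.find_min h hi hne
    rcases lt_or_gt_of_ne hs with h1 | h1
    · exact Or.inl ⟨Nat.find h, hm, h1⟩
    · exact Or.inr (Or.inl ⟨Nat.find h, fun i hi => (hm i hi).symm, h1⟩)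

end order

section per

variable {α : Type*} [LinearOrder α] {w : ℤ → α} {L : ℤ}

omit [LinearOrder α] in
theorem per_mul (hper : ∀ i, w (i + L) = w i) (k : ℤ) (i : ℤ) : w (i + k * L) = w i := by
  induction k using Int.induction_on generalizing i with
  | zero => simp
  | succ k ih =>
    rw [add_mul, one_mul, ← add_assoc, hper]
    exact ih i
  | pred k ih =>
    have h := hper (i + (-(k : ℤ) - 1) * L)
    rw [← h]
    have e : i + (-(k : ℤ) - 1) * L + L = i + -(k : ℤ) * L := by ring
    rw [e]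
    exact ih i

theorem slt_congr (hper : ∀ i, w (i + L) = w i) {p q : ℤ} (a b : ℤ)
    (h : SLt w (p + a * L) (q + b * L)) : SLt w p q := by
  obtain ⟨k, hk, hk'⟩ := h
  have e : ∀ (r c : ℤ) (i : ℕ), w (r + c * L + i) = w (r + i) := fun r c i => by
    have := per_mul hper c (r + i)
    rw [← this]
    congr 1
    ring
  refine ⟨k, fun i hi => ?_, ?_⟩
  · have := hk i hi
    rwa [e, e] at this
  · rwa [e, e] at hk'

/-- a minimal suffix exists -/
theorem exists_min (hL : 0 < L) (hper : ∀ i, w (i + L) = w i) :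
    ∃ p : ℤ, ∀ q : ℤ, ¬ SLt w q p := by
  classical
  -- minimal element of the finite set of residues
  have key : ∀ n : ℕ, ∃ p : ℤ, ∀ q : ℤ, 0 ≤ q → q ≤ n → ¬ SLt w q p := by
    intro n
    induction n with
    | zero =>
      refine ⟨0, fun q h0 h1 => ?_⟩
      have : q = 0 := by omega
      subst this
      exact SLt.irrefl 0
    | succ n ih =>
      obtain ⟨p, hp⟩ := ih
      by_cases h : SLt w ((n : ℤ) + 1) p
      · refine ⟨(n : ℤ) + 1, fun q h0 h1 h2 => ?_⟩
        by_cases h3 : q ≤ n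
        · exact hp q h0 h3 (h2.trans h)
        · have : q = (n : ℤ) + 1 := by push_cast at h1; omega
          subst this
          exact SLt.irrefl _ h2
      · refine ⟨p, fun q h0 h1 => ?_⟩
        by_cases h3 : q ≤ n
        · exact hp q h0 h3
        · have : q = (n : ℤ) + 1 := by push_cast at h1; omega
          subst this
          exact h
  obtain ⟨p, hp⟩ := key L.toNat
  refine ⟨p, fun q h => ?_⟩
  have h0 := Int.emod_nonneg q hL.ne'
  have h1 := Int.emod_lt_of_pos q hL
  apply hp (q % L) h0 (by rw [Int.toNat_of_nonneg hL.le]; exact h1.le)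
  have e : q = q % L + (q / L) * L := by
    have := Int.emod_add_mul_ediv q L
    linarith [mul_comm L (q / L)]
  apply slt_congr hper (q / L) 0
  rw [← e]
  simpa using h

/-- equal suffixes have congruent positions -/
theorem eq_suffix (hL : 0 < L) (hper : ∀ i, w (i + L) = w i)
    (hprim : ∀ d, 0 < d → d < L → ∃ i, w (i + d) ≠ w i) {p q : ℤ}
    (h : ∀ i : ℕ, w (p + i) = w (q + i)) : L ∣ q - p := by
  by_contra hd
  set d := (q - p) % L with hdd
  have h0 := Int.emod_nonneg (q - p) hL.ne'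
  have h1 := Int.emod_lt_of_pos (q - p) hL
  have hd0 : d ≠ 0 := fun h => hd (Int.dvd_of_emod_eq_zero h)
  obtain ⟨i, hi⟩ := hprim d (by omega) h1
  apply hi
  -- shift `i` into the range `≥ p`
  have e : q - p = d + ((q - p) / L) * L := by
    have := Int.emod_add_mul_ediv (q - p) L
    linarith [mul_comm L ((q - p) / L)]
  -- choose `k` with `i + k L ≥ p`
  set k : ℤ := (|i| + |p|) with hk
  have hk0 : 0 ≤ k := by positivity
  have hkL : p ≤ i + k * L := by
    have a1 := neg_abs_le i
    have a2 := le_abs_self p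
    have a3 : k ≤ k * L := by nlinarith
    omega
  obtain ⟨j, hj⟩ : ∃ j : ℕ, (j : ℤ) = i + k * L - p := ⟨(i + k * L - p).toNat, by omega⟩
  have := h j
  rw [hj] at this
  have e1 : p + (i + k * L - p) = i + k * L := by ring
  have e2 : q + (i + k * L - p) = (i + d) + (k + (q - p) / L) * L := by
    have : q = p + d + ((q - p) / L) * L := by linarith
    calc q + (i + k * L - p) = (q - p) + i + k * L := by ring
      _ = (d + ((q - p) / L) * L) + i + k * L := by rw [← e]
      _ = _ := by ring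
  rw [e1, e2, per_mul hper, per_mul hper] at this
  exact this.symm

/-- `p` minimal: strictly smaller than all non congruent positions -/
theorem min_lt (hL : 0 < L) (hper : ∀ i, w (i + L) = w i)
    (hprim : ∀ d, 0 < d → d < L → ∃ i, w (i + d) ≠ w i) {p q : ℤ}
    (hp : ∀ q : ℤ, ¬ SLt w q p) (hq : ¬ L ∣ q - p) : SLt w p q := by
  rcases SLt.tri (w := w) p q with h | h | h
  · exact h
  · exact absurd h (hp q)
  · exact absurd (eq_suffix hL hper hprim h) hq

/-- the block of length `L` at a minimal position is unbordered -/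
theorem unbordered (hL : 0 < L) (hper : ∀ i, w (i + L) = w i)
    (hprim : ∀ d, 0 < d → d < L → ∃ i, w (i + d) ≠ w i) {p : ℤ}
    (hp : ∀ q : ℤ, ¬ SLt w q p) {d : ℤ} (hd0 : 0 < d) (hdL : d < L)
    (hb : ∀ i : ℤ, 0 ≤ i → i < d → w (p + i) = w (p + L - d + i)) : False := by
  have hnd : ¬ L ∣ (p + d) - p := by
    intro h
    have h' : L ∣ d := by simpa using h
    have := Int.le_of_dvd hd0 h'
    omega
  obtain ⟨k, hk, hk'⟩ := min_lt hL hper hprim hp hnd
  apply hp (p + L - d)
  obtain ⟨dn, hdn⟩ : ∃ dn : ℕ, (dn : ℤ) = d := ⟨d.toNat, by omega⟩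
  refine ⟨dn + k, fun i hi => ?_, ?_⟩
  · by_cases h : (i : ℤ) < d
    · exact (hb i (by positivity) h).symm
    · obtain ⟨j, hj⟩ : ∃ j : ℕ, i = dn + j := ⟨i - dn, by omega⟩
      have hjk : j < k := by omega
      have h1 := hk j hjk
      have e1 : p + L - d + (i : ℤ) = p + (j : ℤ) + L := by
        rw [hj]; push_cast; rw [hdn]; ring
      have e2 : p + (i : ℤ) = p + d + j := by
        rw [hj]; push_cast; rw [hdn]; ring
      rw [e1, e2, hper]
      exact h1
  · have e1 : p + L - d + ((dn + k : ℕ) : ℤ) = p + (k : ℤ) + L := by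
      push_cast; rw [hdn]; ring
    have e2 : p + ((dn + k : ℕ) : ℤ) = p + d + k := by
      push_cast; rw [hdn]; ring
    rw [e1, e2, hper]
    exact hk'

/-- a factor with two occurrences at non congruent positions has one inside `[p, p + L)` -/
theorem two_occ (hL : 0 < L) (hper : ∀ i, w (i + L) = w i)
    (hprim : ∀ d, 0 < d → d < L → ∃ i, w (i + d) ≠ w i) {p : ℤ}
    (hp : ∀ q : ℤ, ¬ SLt w q p) {q q' m : ℤ}
    (h : ∀ i : ℤ, 0 ≤ i → i < m → w (q + i) = w (q' + i)) (hq : ¬ L ∣ q' - q) :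
    ∃ k : ℤ, (p ≤ q + k * L ∧ q + k * L + m ≤ p + L) ∨
      (p ≤ q' + k * L ∧ q' + k * L + m ≤ p + L) := by
  -- representatives in `[p, p + L)`
  have rep : ∀ r : ℤ, ∃ k : ℤ, p ≤ r + k * L ∧ r + k * L < p + L := by
    intro r
    refine ⟨-((r - p) / L), ?_⟩
    have h0 := Int.emod_nonneg (r - p) hL.ne'
    have h1 := Int.emod_lt_of_pos (r - p) hL
    have e := Int.emod_add_mul_ediv (r - p) L
    have e' : r + -((r - p) / L) * L = p + (r - p) % L := by
      have : L * ((r - p) / L) = ((r - p) / L) * L := mul_comm _ _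
      linarith
    rw [e']
    constructor <;> linarith
  obtain ⟨a, ha1, ha2⟩ := rep q
  obtain ⟨b, hb1, hb2⟩ := rep q'
  by_contra hcon
  push Not at hcon
  have hca := (hcon a).1 ha1
  have hcb := (hcon b).2 hb1
  set r := q + a * L with hr
  set r' := q' + b * L with hr'
  have hrr : r ≠ r' := by
    intro he
    apply hq
    exact ⟨a - b, by linarith [mul_comm L (a - b), sub_mul a b L]⟩
  have hocc : ∀ i : ℤ, 0 ≤ i → i < m → w (r + i) = w (r' + i) := by
    intro i h0 h1
    have e1 : r + i = (q + i) + a * L := by rw [hr]; ring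
    have e2 : r' + i = (q' + i) + b * L := by rw [hr']; ring
    rw [e1, e2, per_mul hper, per_mul hper]
    exact h i h0 h1
  rcases lt_or_gt_of_ne hrr with hlt | hlt
  · apply unbordered hL hper hprim hp (d := r' - r) (by omega) (by omega)
    intro i h0 h1
    -- `w (p + i) = w (p + L + i) = w (r' + (p + L - r') + i) = w (r + (p + L - r') + i)`
    have e := hocc (p + L - r' + i) (by omega) (by omega)
    have e1 : r + (p + L - r' + i) = p + L - (r' - r) + i := by ring
    have e2 : r' + (p + L - r' + i) = (p + i) + L := by ring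
    rw [e1, e2, hper] at e
    exact e.symm
  · apply unbordered hL hper hprim hp (d := r - r') (by omega) (by omega)
    intro i h0 h1
    have e := hocc (p + L - r + i) (by omega) (by omega)
    have e1 : r' + (p + L - r + i) = p + L - (r - r') + i := by ring
    have e2 : r + (p + L - r + i) = (p + i) + L := by ring
    rw [e1, e2, hper] at e
    exact e

end per

section run

variable {α : Type*} [LinearOrder α] {w : ℤ → α} {L : ℤ}

/-- the end of the `v`-periodic run containing `[α, ζ)` -/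
theorem exists_run_end (hL : 0 < L) (hper : ∀ i, w (i + L) = w i)
    (hprim : ∀ d, 0 < d → d < L → ∃ i, w (i + d) ≠ w i) {v α ζ : ℤ} (hv0 : 0 < v) (hvL : v < L)
    (hrun : ∀ i, α ≤ i → i + v < ζ → w (i + v) = w i) :
    ∃ Q : ℤ, ζ ≤ Q ∧ w (Q - v) ≠ w Q ∧ ∀ i, α ≤ i → i + v < Q → w (i + v) = w i := by
  classical
  -- a mismatch exists far to the right
  obtain ⟨i0, hi0⟩ := hprim v hv0 hvL
  have hex : ∃ n : ℕ, w (ζ + n - v) ≠ w (ζ + n) := by
    set k : ℤ := |i0| + |ζ| with hk
    have hk0 : 0 ≤ k := by positivity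
    have hkL : ζ ≤ i0 + k * L := by
      have a1 := neg_abs_le i0
      have a2 := le_abs_self ζ
      have a3 : k ≤ k * L := by nlinarith
      omega
    refine ⟨(i0 + k * L + v - ζ).toNat, ?_⟩
    have e : ((i0 + k * L + v - ζ).toNat : ℤ) = i0 + k * L + v - ζ := by omega
    rw [e]
    have e1 : ζ + (i0 + k * L + v - ζ) - v = i0 + k * L := by ring
    have e2 : ζ + (i0 + k * L + v - ζ) = (i0 + v) + k * L := by ring
    rw [e1, e2, per_mul hper, per_mul hper]
    exact fun h => hi0 h.symm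
  refine ⟨ζ + Nat.find hex, by omega, Nat.find_spec hex, fun i hi h => ?_⟩
  by_cases h' : i + v < ζ
  · exact hrun i hi h'
  · obtain ⟨n, hn⟩ : ∃ n : ℕ, (n : ℤ) = i + v - ζ := ⟨(i + v - ζ).toNat, by omega⟩
    have hlt : n < Nat.find hex := by omega
    have := Nat.find_min hex hlt
    push Not at this
    rw [hn] at this
    have e1 : ζ + (i + v - ζ) - v = i := by ring
    have e2 : ζ + (i + v - ζ) = i + v := by ring
    rw [e1, e2] at this
    exact this.symm

theorem left_type {p : ℤ} (hp : ∀ q : ℤ, ¬ SLt w q p) {v α Q : ℤ}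
    (hlt : w (Q - v) < w Q)
    (hrun : ∀ i, α ≤ i → i + v < Q → w (i + v) = w i) (h1 : α + v ≤ p) (h2 : p ≤ Q) : False := by
  apply hp (p - v)
  obtain ⟨k, hk⟩ : ∃ k : ℕ, (k : ℤ) = Q - p := ⟨(Q - p).toNat, by omega⟩
  refine ⟨k, fun i hi => ?_, ?_⟩
  · have := hrun (p - v + i) (by omega) (by omega)
    have e : p - v + (i : ℤ) + v = p + i := by ring
    rw [e] at this
    exact this.symm
  · rw [hk]
    have e1 : p - v + (Q - p) = Q - v := by ring
    have e2 : p + (Q - p) = Q := by ring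
    rw [e1, e2]
    exact hlt

theorem right_type {p : ℤ} (hp : ∀ q : ℤ, ¬ SLt w q p) {v α Q : ℤ}
    (hlt : w Q < w (Q - v))
    (hrun : ∀ i, α ≤ i → i + v < Q → w (i + v) = w i) (h1 : α ≤ p) (h2 : p ≤ Q - v) : False := by
  apply hp (p + v)
  obtain ⟨k, hk⟩ : ∃ k : ℕ, (k : ℤ) = Q - v - p := ⟨(Q - v - p).toNat, by omega⟩
  refine ⟨k, fun i hi => ?_, ?_⟩
  · have := hrun (p + i) (by omega) (by omega)
    have e : p + (i : ℤ) + v = p + v + i := by ring
    rw [e] at this
    exact this
  · rw [hk]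
    have e1 : p + v + (Q - v - p) = Q := by ring
    have e2 : p + (Q - v - p) = Q - v := by ring
    rw [e1, e2]
    exact hlt

end run

section fw

variable {α : Type*} {w : ℤ → α}

/-- Fine-Wilf on an interval `[A, B)`. -/
theorem fine_wilf_aux (A : ℤ) : ∀ n : ℕ, ∀ (p q : ℕ) (B : ℤ), p + q ≤ n → 0 < p → 0 < q →
    (p : ℤ) + q ≤ B - A → (∀ t, A ≤ t → t + p < B → w (t + p) = w t) →
    (∀ t, A ≤ t → t + q < B → w (t + q) = w t) →
    ∀ t, A ≤ t → t + (Nat.gcd p q : ℕ) < B → w (t + (Nat.gcd p q : ℕ)) = w t := by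
  intro n
  induction n with
  | zero => intro p q B h hp hq; omega
  | succ n ih =>
    intro p q B hn hp hq hB h1 h2 t ht htB
    rcases lt_trichotomy p q with h | h | h
    · -- replace `q` by `q - p`, `B` by `B - p`
      have hg : Nat.gcd p q = Nat.gcd p (q - p) := by
        rw [Nat.gcd_sub_self_right h.le]
      have key := ih p (q - p) (B - p) (by omega) hp (by omega) (by push_cast [h.le]; omega)
        (fun t h3 h4 => h1 t h3 (by omega))
        (fun t h3 h4 => by
          have e1 := h2 t h3 (by push_cast [h.le] at h4; omega)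
          have e2 := h1 (t + ((q - p : ℕ) : ℤ)) (by omega) (by push_cast [h.le] at h4 ⊢; omega)
          have e3 : t + ((q - p : ℕ) : ℤ) + p = t + q := by push_cast [h.le]; ring
          rw [e3] at e2
          exact e2.symm.trans e1)
      have hgp : Nat.gcd p q ≤ p := Nat.gcd_le_left _ hp
      rw [hg] at htB ⊢
      rw [hg] at hgp
      by_cases hc : t + (Nat.gcd p (q - p) : ℕ) < B - p
      · exact key t ht hc
      · have hA : A ≤ t - p := by
          have : (Nat.gcd p (q - p) : ℤ) ≤ (q - p : ℕ) := by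
            exact_mod_cast Nat.gcd_le_right _ (by omega)
          push_cast [h.le] at this
          omega
        have e1 := key (t - p) hA (by omega)
        have e2 := h1 (t - p) hA (by omega)
        have e3 := h1 (t - p + (Nat.gcd p (q - p) : ℕ)) (by omega) (by omega)
        have e4 : t - p + (p : ℤ) = t := by ring
        have e5 : t - p + ((Nat.gcd p (q - p) : ℕ) : ℤ) + p = t + (Nat.gcd p (q - p) : ℕ) := by ring
        rw [e4] at e2
        rw [e5] at e3
        rw [e3, e1, e2]
    · subst h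
      simpa using h1 t ht (by simpa using htB)
    · have hg : Nat.gcd p q = Nat.gcd (p - q) q := by
        rw [Nat.gcd_sub_self_left h.le]
      have key := ih (p - q) q (B - q) (by omega) (by omega) hq (by push_cast [h.le]; omega)
        (fun t h3 h4 => by
          have e1 := h1 t h3 (by push_cast [h.le] at h4; omega)
          have e2 := h2 (t + ((p - q : ℕ) : ℤ)) (by omega) (by push_cast [h.le] at h4 ⊢; omega)
          have e3 : t + ((p - q : ℕ) : ℤ) + q = t + p := by push_cast [h.le]; ring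
          rw [e3] at e2
          exact e2.symm.trans e1)
        (fun t h3 h4 => h2 t h3 (by omega))
      have hgp : Nat.gcd p q ≤ q := Nat.gcd_le_right _ hq
      rw [hg] at htB ⊢
      rw [hg] at hgp
      by_cases hc : t + (Nat.gcd (p - q) q : ℕ) < B - q
      · exact key t ht hc
      · have hA : A ≤ t - q := by
          have : (Nat.gcd (p - q) q : ℤ) ≤ (p - q : ℕ) := by
            exact_mod_cast Nat.gcd_le_left _ (by omega)
          push_cast [h.le] at this
          omega
        have e1 := key (t - q) hA (by omega)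
        have e2 := h2 (t - q) hA (by omega)
        have e3 := h2 (t - q + (Nat.gcd (p - q) q : ℕ)) (by omega) (by omega)
        have e4 : t - q + (q : ℤ) = t := by ring
        have e5 : t - q + ((Nat.gcd (p - q) q : ℕ) : ℤ) + q = t + (Nat.gcd (p - q) q : ℕ) := by ring
        rw [e4] at e2
        rw [e5] at e3
        rw [e3, e1, e2]

/-- **Fine-Wilf**: two periods `p, q` on an interval of length `≥ p + q`. -/
theorem fine_wilf {A B : ℤ} {p q : ℕ} (hp : 0 < p) (hq : 0 < q) (hB : (p : ℤ) + q ≤ B - A)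
    (h1 : ∀ t, A ≤ t → t + p < B → w (t + p) = w t)
    (h2 : ∀ t, A ≤ t → t + q < B → w (t + q) = w t) :
    ∀ t, A ≤ t → t + (Nat.gcd p q : ℕ) < B → w (t + (Nat.gcd p q : ℕ)) = w t :=
  fine_wilf_aux A (p + q) p q B le_rfl hp hq hB h1 h2

end fw

section cut

variable {α : Type*} [LinearOrder α] {w : ℤ → α} {L : ℤ}

/-- transport of minimality to congruent positions -/
theorem min_shift (hper : ∀ i, w (i + L) = w i) {p : ℤ} (hp : ∀ q : ℤ, ¬ SLt w q p) (k : ℤ) :
    ∀ q : ℤ, ¬ SLt w q (p + k * L) := by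
  intro q h
  apply hp q
  apply slt_congr hper 0 k
  simpa using h

/-- One traversal, one cut position. `lft` is the type of the traversal.
A factor `[q, q + m) ⊆ [ξ, η)` has a translate inside the extended window. -/
theorem cover_one (hL : 0 < L) (hper : ∀ i, w (i + L) = w i) {p : ℤ}
    (hp : ∀ q : ℤ, ¬ SLt w q p) {v α ξ η ζ Q : ℤ} (hvL : v < L)
    (h1 : α ≤ ξ) (h3 : η ≤ ζ) (hζQ : ζ ≤ Q)
    (hrun : ∀ i, α ≤ i → i + v < Q → w (i + v) = w i) (hne : w (Q - v) ≠ w Q)
    {lam mu : ℤ} (hlam0 : 0 ≤ lam) (hmu0 : 0 ≤ mu)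
    (hlam : w (Q - v) < w Q → α + v - ξ ≤ lam)
    (hmu : w Q < w (Q - v) → η + v - ζ ≤ mu)
    {q m : ℤ} (hq1 : ξ ≤ q) (hq2 : q + m ≤ η) :
    ∃ k : ℤ, p - lam ≤ q + k * L ∧ q + k * L + m ≤ p + L + mu := by
  -- the representative of `q` in `[p, p + L)`
  obtain ⟨a, ha1, ha2⟩ : ∃ k : ℤ, p ≤ q + k * L ∧ q + k * L < p + L := by
    refine ⟨-((q - p) / L), ?_⟩
    have h0 := Int.emod_nonneg (q - p) hL.ne'
    have h1 := Int.emod_lt_of_pos (q - p) hL
    have e := Int.emod_add_mul_ediv (q - p) L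
    have e' : q + -((q - p) / L) * L = p + (q - p) % L := by
      have : L * ((q - p) / L) = ((q - p) / L) * L := mul_comm _ _
      linarith
    rw [e']
    constructor <;> linarith
  by_cases hin : q + a * L + m ≤ p + L
  · exact ⟨a, by omega, by omega⟩
  -- `p' = p + L - a L` cuts the factor: `q < p' < q + m`
  push Not at hin
  set p' := p + (1 - a) * L with hp'
  have hmin : ∀ q : ℤ, ¬ SLt w q p' := min_shift hper hp (1 - a)
  have e1 : p' = p + L - a * L := by rw [hp']; ring
  have hc1 : q < p' := by rw [e1]; linarith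
  have hc2 : p' < q + m := by rw [e1]; linarith
  rcases lt_or_gt_of_ne hne with hlt | hgt
  · -- left type
    have hA : p' < α + v := by
      by_contra hh
      push Not at hh
      exact left_type hmin hlt hrun hh (by linarith)
    have hB : Q < p' + L := by
      by_contra hh
      push Not at hh
      have hmin' : ∀ q : ℤ, ¬ SLt w q (p' + L) := by
        have := min_shift hper hmin 1
        simpa using this
      exact left_type hmin' hlt hrun (by linarith) hh
    have hl := hlam hlt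
    refine ⟨a - 1, ?_, ?_⟩
    · have : (a - 1) * L = a * L - L := by ring
      rw [this]
      linarith
    · have : (a - 1) * L = a * L - L := by ring
      rw [this]
      linarith
  · -- right type
    have hA : Q - v < p' := by
      by_contra hh
      push Not at hh
      exact right_type hmin hgt hrun (by linarith) hh
    have hB : p' - L < α := by
      by_contra hh
      push Not at hh
      have hmin' : ∀ q : ℤ, ¬ SLt w q (p' - L) := by
        have := min_shift hper hmin (-1)
        have e : p' + -1 * L = p' - L := by ring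
        rwa [e] at this
      exact right_type hmin' hgt hrun hh (by linarith)
    have hm' := hmu hgt
    refine ⟨a, by linarith, ?_⟩
    linarith

/-- `CutData`: the traversals. -/
structure Trav {α : Type*} (w : ℤ → α) (L : ℤ) where
  v : ℤ
  a : ℤ
  x : ℤ
  y : ℤ
  z : ℤ
  v_pos : 0 < v
  v_lt : v < L
  ax : a ≤ x
  xa : x ≤ a + v
  yz : y ≤ z
  zy : z ≤ y + v
  run : ∀ i, a ≤ i → i + v < z → w (i + v) = w i

/-- the window obtained from one order -/
theorem cover_all {ι : Type*} (s : Finset ι) (T : ι → Trav w L) (hL : 0 < L)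
    (hper : ∀ i, w (i + L) = w i)
    (hprim : ∀ d, 0 < d → d < L → ∃ i, w (i + d) ≠ w i)
    (ty : ι → Prop) [DecidablePred ty]
    (Q : ι → ℤ) (hQz : ∀ j ∈ s, (T j).z ≤ Q j) (hQ1 : ∀ j ∈ s, w (Q j - (T j).v) ≠ w (Q j))
    (hQ2 : ∀ j ∈ s, ∀ i, (T j).a ≤ i → i + (T j).v < Q j → w (i + (T j).v) = w i)
    (hty : ∀ j ∈ s, ty j ↔ w (Q j - (T j).v) < w (Q j)) :
    ∃ P P' : ℤ, P + L ≤ P' ∧ P' - P ≤ L + ∑ j ∈ s, (if ty j then (T j).v - ((T j).x - (T j).a)
        else (T j).v - ((T j).z - (T j).y)) ∧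
      (∀ q q' m : ℤ, (∀ i : ℤ, 0 ≤ i → i < m → w (q + i) = w (q' + i)) → ¬ L ∣ q' - q →
        ∃ k : ℤ, (P ≤ q + k * L ∧ q + k * L + m ≤ P') ∨ (P ≤ q' + k * L ∧ q' + k * L + m ≤ P')) ∧
      (∀ j ∈ s, ∀ q m : ℤ, (T j).x ≤ q → q + m ≤ (T j).y →
        ∃ k : ℤ, P ≤ q + k * L ∧ q + k * L + m ≤ P') := by
  classical
  obtain ⟨p, hp⟩ := exists_min hL hper
  set lam : ℤ := ∑ j ∈ s, (if ty j then (T j).v - ((T j).x - (T j).a) else 0) with hlam
  set mu : ℤ := ∑ j ∈ s, (if ty j then 0 else (T j).v - ((T j).z - (T j).y)) with hmu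
  have hn1 : ∀ j ∈ s, (0 : ℤ) ≤ (if ty j then (T j).v - ((T j).x - (T j).a) else 0) := by
    intro j _
    split_ifs
    · have := (T j).xa; linarith
    · exact le_rfl
  have hn2 : ∀ j ∈ s, (0 : ℤ) ≤ (if ty j then 0 else (T j).v - ((T j).z - (T j).y)) := by
    intro j _
    split_ifs
    · exact le_rfl
    · have := (T j).zy; linarith
  have hlam0 : 0 ≤ lam := Finset.sum_nonneg hn1
  have hmu0 : 0 ≤ mu := Finset.sum_nonneg hn2
  refine ⟨p - lam, p + L + mu, by linarith, ?_, ?_, ?_⟩
  · have : ∑ j ∈ s, (if ty j then (T j).v - ((T j).x - (T j).a)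
        else (T j).v - ((T j).z - (T j).y)) = lam + mu := by
      rw [hlam, hmu, ← Finset.sum_add_distrib]
      apply Finset.sum_congr rfl
      intro j _
      split_ifs <;> ring
    rw [this]
    linarith
  · intro q q' m h hq
    obtain ⟨k, hk⟩ := two_occ hL hper hprim hp h hq
    refine ⟨k, ?_⟩
    rcases hk with ⟨h1, h2⟩ | ⟨h1, h2⟩
    · exact Or.inl ⟨by linarith, by linarith⟩
    · exact Or.inr ⟨by linarith, by linarith⟩
  · intro j hj q m h1 h2
    apply cover_one (ζ := (T j).z) hL hper hp (T j).v_lt (T j).ax (T j).yz (hQz j hj)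
      (hQ2 j hj) (hQ1 j hj) hlam0 hmu0 _ _ h1 h2
    · intro hlt
      have ht : ty j := (hty j hj).2 hlt
      have := Finset.single_le_sum hn1 hj
      rw [if_pos ht] at this
      rw [hlam]
      linarith
    · intro hgt
      have ht : ¬ ty j := fun h => lt_asymm ((hty j hj).1 h) hgt
      have := Finset.single_le_sum hn2 hj
      rw [if_neg ht] at this
      rw [hmu]
      linarith

/-- **Cut theorem** (CLAIM (iii)). -/
theorem cut_len {α : Type*} [LinearOrder α] {ι : Type*} (s : Finset ι) (w : ℤ → α) (L : ℤ)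
    (T : ι → Trav w L) (hL : 0 < L)
    (hper : ∀ i, w (i + L) = w i)
    (hprim : ∀ d, 0 < d → d < L → ∃ i, w (i + d) ≠ w i) :
    ∃ P P' : ℤ, P + L ≤ P' ∧ 2 * (P' - P) ≤ 2 * L + ∑ j ∈ s, (2 * (T j).v - ((T j).x - (T j).a)
        - ((T j).z - (T j).y)) ∧
      (∀ q q' m : ℤ, (∀ i : ℤ, 0 ≤ i → i < m → w (q + i) = w (q' + i)) → ¬ L ∣ q' - q →
        ∃ k : ℤ, (P ≤ q + k * L ∧ q + k * L + m ≤ P') ∨ (P ≤ q' + k * L ∧ q' + k * L + m ≤ P')) ∧
      (∀ j ∈ s, ∀ q m : ℤ, (T j).x ≤ q → q + m ≤ (T j).y →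
        ∃ k : ℤ, P ≤ q + k * L ∧ q + k * L + m ≤ P') := by
  classical
  have hQ : ∀ j, ∃ Q : ℤ, (T j).z ≤ Q ∧ w (Q - (T j).v) ≠ w Q ∧
      ∀ i, (T j).a ≤ i → i + (T j).v < Q → w (i + (T j).v) = w i := fun j =>
    exists_run_end hL hper hprim (T j).v_pos (T j).v_lt (T j).run
  choose Q hQz hQ1 hQ2 using hQ
  set ty : ι → Prop := fun j => w (Q j - (T j).v) < w (Q j) with hty
  obtain ⟨P, P', hPL, hP, hP1, hP2⟩ := cover_all s T hL hper hprim ty Q (fun j _ => hQz j)
    (fun j _ => hQ1 j) (fun j _ => hQ2 j) (fun j _ => Iff.rfl)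
  -- the reversed order
  set w' : ℤ → αᵒᵈ := fun i => OrderDual.toDual (w i) with hw'
  have hper' : ∀ i, w' (i + L) = w' i := fun i => by simp [hw', hper i]
  have hprim' : ∀ d, 0 < d → d < L → ∃ i, w' (i + d) ≠ w' i := fun d h0 h1 => by
    obtain ⟨i, hi⟩ := hprim d h0 h1
    exact ⟨i, fun h => hi (OrderDual.toDual.injective h)⟩
  let T' : ι → Trav w' L := fun j =>
    { v := (T j).v, a := (T j).a, x := (T j).x, y := (T j).y, z := (T j).z,
      v_pos := (T j).v_pos, v_lt := (T j).v_lt, ax := (T j).ax, xa := (T j).xa,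
      yz := (T j).yz, zy := (T j).zy,
      run := fun i h1 h2 => by simp [hw', (T j).run i h1 h2] }
  have hQ1' : ∀ j ∈ s, w' (Q j - (T' j).v) ≠ w' (Q j) := fun j _ h => hQ1 j (OrderDual.toDual.injective h)
  have hQ2' : ∀ j ∈ s, ∀ i, (T' j).a ≤ i → i + (T' j).v < Q j → w' (i + (T' j).v) = w' i := by
    intro j _ i h1 h2
    show OrderDual.toDual (w (i + (T j).v)) = OrderDual.toDual (w i)
    rw [hQ2 j i h1 h2]
  obtain ⟨R, R', hRL, hR, hR1, hR2⟩ := cover_all s T' hL hper' hprim' (fun j => ¬ ty j) Q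
    (fun j _ => hQz j) hQ1' hQ2' (fun j _ => by
      show ¬ (w (Q j - (T j).v) < w (Q j)) ↔
        OrderDual.toDual (w (Q j - (T j).v)) < OrderDual.toDual (w (Q j))
      have := hQ1 j
      rw [OrderDual.toDual_lt_toDual]
      constructor
      · intro h
        exact lt_of_le_of_ne (not_lt.1 h) this.symm
      · intro h
        exact not_lt.2 h.le)
  have hsum : (∑ j ∈ s, (if ty j then (T j).v - ((T j).x - (T j).a)
        else (T j).v - ((T j).z - (T j).y))) + (∑ j ∈ s, (if ¬ ty j then (T' j).v - ((T' j).x - (T' j).a)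
        else (T' j).v - ((T' j).z - (T' j).y))) = ∑ j ∈ s, (2 * (T j).v - ((T j).x - (T j).a)
        - ((T j).z - (T j).y)) := by
    rw [← Finset.sum_add_distrib]
    apply Finset.sum_congr rfl
    intro j _
    show (if ty j then (T j).v - ((T j).x - (T j).a)
        else (T j).v - ((T j).z - (T j).y)) + (if ¬ ty j then (T j).v - ((T j).x - (T j).a)
        else (T j).v - ((T j).z - (T j).y)) = _
    by_cases h : ty j
    · rw [if_pos h, if_neg (not_not.2 h)]; ring
    · rw [if_neg h, if_pos h]; ring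
  rcases le_total (P' - P) (R' - R) with hle | hle
  · exact ⟨P, P', hPL, by linarith, hP1, hP2⟩
  · refine ⟨R, R', hRL, by linarith, ?_, ?_⟩
    · intro q q' m h hq
      exact hR1 q q' m (fun i h0 h1 => by simp [hw', h i h0 h1]) hq
    · intro j hj q m h1 h2
      exact hR2 j hj q m h1 h2

/-- The cut theorem in the form of note #8335 (P333, package (a)). -/
theorem cut' {α : Type*} [LinearOrder α] {ι : Type*} [Fintype ι] (W : ℤ → α) (m : ℤ) (hm : 0 < m)
    (hper : ∀ t, W (t + m) = W t) (hprim : ∀ q, (∀ t, W (t + q) = W t) → m ∣ q)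
    (w P R xs ys : ι → ℤ) (hw : ∀ D, 0 < w D) (hwm : ∀ D, w D < m) (h1 : ∀ D, P D ≤ xs D)
    (h2 : ∀ D, ys D ≤ R D)
    (hrun : ∀ D t, P D ≤ t → t + w D < R D → W (t + w D) = W t)
    (h4 : ∀ D, xs D - P D ≤ w D) (h5 : ∀ D, R D - ys D ≤ w D) :
    ∃ p lam mu : ℤ, 0 ≤ lam ∧ 0 ≤ mu ∧
      2 * (lam + mu) ≤ ∑ D, ((w D - (xs D - P D)) + (w D - (R D - ys D))) ∧
      (∀ i j l : ℤ, 0 ≤ l → ¬ m ∣ j - i → (∀ t, 0 ≤ t → t < l → W (i + t) = W (j + t)) →
        ∃ k : ℤ, (p - lam ≤ i + k * m ∧ i + k * m + l ≤ p + m + mu) ∨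
          (p - lam ≤ j + k * m ∧ j + k * m + l ≤ p + m + mu)) ∧
      (∀ D x y, xs D ≤ x → x ≤ y → y ≤ ys D →
        ∃ k : ℤ, p - lam ≤ x + k * m ∧ y + k * m ≤ p + m + mu) := by
  have hprim' : ∀ d, 0 < d → d < m → ∃ i, W (i + d) ≠ W i := by
    intro d h0 h1
    by_contra hcon
    push Not at hcon
    have := Int.le_of_dvd h0 (hprim d hcon)
    omega
  let T : ι → Trav W m := fun D =>
    { v := w D, a := P D, x := xs D, y := ys D, z := R D, v_pos := hw D, v_lt := hwm D,
      ax := h1 D, xa := by linarith [h4 D], yz := h2 D, zy := by linarith [h5 D],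
      run := fun i a b => hrun D i a b }
  obtain ⟨A, B, hAB, hlen, hT, hO⟩ := cut_len Finset.univ W m T hm hper hprim'
  refine ⟨A, 0, B - A - m, le_rfl, by linarith, ?_, ?_, ?_⟩
  · have : ∑ D, ((w D - (xs D - P D)) + (w D - (R D - ys D))) =
        ∑ j, (2 * (T j).v - ((T j).x - (T j).a) - ((T j).z - (T j).y)) := by
      apply Finset.sum_congr rfl
      intro D _
      show _ = 2 * w D - (xs D - P D) - (R D - ys D)
      ring
    rw [this]
    linarith
  · intro i j l _ hd h
    obtain ⟨k, hk⟩ := hT i j l h hd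
    refine ⟨k, ?_⟩
    rcases hk with ⟨h1, h2⟩ | ⟨h1, h2⟩
    · exact Or.inl ⟨by linarith, by linarith⟩
    · exact Or.inr ⟨by linarith, by linarith⟩
  · intro D x y h1 _ h3
    obtain ⟨k, hk1, hk2⟩ := hO D (Finset.mem_univ D) x (y - x) h1 (by
      show x + (y - x) ≤ ys D
      linarith)
    exact ⟨k, by linarith, by linarith⟩

end cut

end Vale.Agent.P333.H70
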